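import Mathlib

/-! Homological bookkeeping: finite projective dimension and vanishing of `Ext(-, S)` along
short exact sequences of modules. -/

set_option autoImplicit false

namespace Crest.Agent.R178

open CategoryTheory CategoryTheory.Abelian

variable {A : Type} [Ring A]

/-- finite projective dimension -/
def FinPD (N : ModuleCat.{0} A) : Prop := ∃ n : ℕ, HasProjectiveDimensionLT N n

/-- `Ext^i(N, S)` vanishes -/
def VanAt (S N : ModuleCat.{0} A) (i : ℕ) : Prop := ∀ e : Ext.{0} N S i, e = 0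

/-- all `Ext^i(N, S)` vanish -/
def Van (S N : ModuleCat.{0} A) : Prop := ∀ i, VanAt S N i

section
variable {M N P : Type} [AddCommGroup M] [AddCommGroup N] [AddCommGroup P]
  [Module A M] [Module A N] [Module A P]

/-- short exactness of two linear maps -/
structure SE (u : M →ₗ[A] N) (v : N →ₗ[A] P) : Prop where
  inj : Function.Injective u
  ex : Function.Exact u v
  sur : Function.Surjective v

/-- the short complex attached to `SE` -/
noncomputable abbrev SE.cx {u : M →ₗ[A] N} {v : N →ₗ[A] P} (h : SE u v) :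
    ShortComplex (ModuleCat.{0} A) :=
  ShortComplex.mk (ModuleCat.ofHom u) (ModuleCat.ofHom v)
    (by ext x; simpa using h.ex.apply_apply_eq_zero x)

lemma SE.shortExact {u : M →ₗ[A] N} {v : N →ₗ[A] P} (h : SE u v) : h.cx.ShortExact :=
  ModuleCat.shortComplex_shortExact _ h.ex h.inj h.sur

lemma SE.fin₃ {u : M →ₗ[A] N} {v : N →ₗ[A] P} (h : SE u v)
    (h₁ : FinPD (ModuleCat.of A M)) (h₂ : FinPD (ModuleCat.of A N)) :
    FinPD (ModuleCat.of A P) := by
  obtain ⟨a, ha⟩ := h₁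
  obtain ⟨b, hb⟩ := h₂
  refine ⟨a + b + 1, h.shortExact.hasProjectiveDimensionLT_X₃ (a + b) ?_ ?_⟩
  · exact hasProjectiveDimensionLT_of_ge (ModuleCat.of A M) a _ (by omega)
  · exact hasProjectiveDimensionLT_of_ge (ModuleCat.of A N) b _ (by omega)

lemma SE.fin₂ {u : M →ₗ[A] N} {v : N →ₗ[A] P} (h : SE u v)
    (h₁ : FinPD (ModuleCat.of A M)) (h₃ : FinPD (ModuleCat.of A P)) :
    FinPD (ModuleCat.of A N) := by
  obtain ⟨a, ha⟩ := h₁
  obtain ⟨b, hb⟩ := h₃
  refine ⟨a + b, h.shortExact.hasProjectiveDimensionLT_X₂ (a + b) ?_ ?_⟩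
  · exact hasProjectiveDimensionLT_of_ge (ModuleCat.of A M) a _ (by omega)
  · exact hasProjectiveDimensionLT_of_ge (ModuleCat.of A P) b _ (by omega)

lemma SE.van₃ {S : ModuleCat.{0} A} {u : M →ₗ[A] N} {v : N →ₗ[A] P} (h : SE u v)
    (h₁ : Van S (ModuleCat.of A M)) (h₂ : Van S (ModuleCat.of A N)) :
    Van S (ModuleCat.of A P) := by
  rintro (_ | i) e
  · have := h.shortExact.epi_g
    apply Ext.precomp_mk₀_injective_of_epi S h.cx.g
    rw [map_zero]
    exact h₂ 0 _
  · obtain ⟨x₁, hx⟩ := Ext.contravariant_sequence_exact₃ h.shortExact S e (h₂ _ _) (add_comm 1 i)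
    rw [← hx, h₁ i x₁, Ext.comp_zero]

lemma SE.vanAt₁ {S : ModuleCat.{0} A} {u : M →ₗ[A] N} {v : N →ₗ[A] P} (h : SE u v) (i : ℕ)
    (h₂ : VanAt S (ModuleCat.of A N) i) (h₃ : VanAt S (ModuleCat.of A P) (i + 1)) :
    VanAt S (ModuleCat.of A M) i := by
  intro e
  obtain ⟨x₂, hx⟩ := Ext.contravariant_sequence_exact₁ h.shortExact S e (add_comm 1 i) (h₃ _)
  rw [← hx, h₂ x₂, Ext.comp_zero]

lemma SE.van₁ {S : ModuleCat.{0} A} {u : M →ₗ[A] N} {v : N →ₗ[A] P} (h : SE u v)
    (h₂ : Van S (ModuleCat.of A N)) (h₃ : Van S (ModuleCat.of A P)) :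
    Van S (ModuleCat.of A M) := fun i => h.vanAt₁ i (h₂ i) (h₃ (i + 1))

lemma SE.van₂ {S : ModuleCat.{0} A} {u : M →ₗ[A] N} {v : N →ₗ[A] P} (h : SE u v)
    (h₁ : Van S (ModuleCat.of A M)) (h₃ : Van S (ModuleCat.of A P)) :
    Van S (ModuleCat.of A N) := by
  intro i e
  obtain ⟨x₃, hx⟩ := Ext.contravariant_sequence_exact₂ h.shortExact S e (h₁ i _)
  rw [← hx, h₃ i x₃, Ext.comp_zero]

lemma vanAt_of_retract {S : ModuleCat.{0} A} (s : M →ₗ[A] N) (r : N →ₗ[A] M)
    (hrs : ∀ x, r (s x) = x) (i : ℕ) (h : VanAt S (ModuleCat.of A N) i) :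
    VanAt S (ModuleCat.of A M) i := by
  intro e
  have hc : ModuleCat.ofHom s ≫ ModuleCat.ofHom r = 𝟙 (ModuleCat.of A M) := by
    ext x; simpa using hrs x
  rw [← e.mk₀_id_comp, ← hc, ← Ext.mk₀_comp_mk₀, Ext.comp_assoc_of_second_deg_zero,
    h ((Ext.mk₀ (ModuleCat.ofHom r)).comp e (zero_add i)), Ext.comp_zero]

lemma finPD_of_projective [Module.Projective A M] : FinPD (ModuleCat.of A M) :=
  ⟨1, inferInstance⟩

lemma finPD_of_subsingleton [Subsingleton M] : FinPD (ModuleCat.of A M) :=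
  ⟨0, (ModuleCat.isZero_of_subsingleton _).hasProjectiveDimensionLT_zero⟩

lemma van_of_subsingleton {S : ModuleCat.{0} A} [Subsingleton M] : Van S (ModuleCat.of A M) := by
  intro i e
  have := (ModuleCat.isZero_of_subsingleton (ModuleCat.of A M)).hasProjectiveDimensionLT_zero
  exact e.eq_zero_of_hasProjectiveDimensionLT 0 (Nat.zero_le _)

lemma van_of_projective [Module.Projective A M] (h : ∀ φ : M →ₗ[A] N, φ = 0) :
    Van (ModuleCat.of A N) (ModuleCat.of A M) := by
  rintro (_ | i) e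
  · obtain ⟨φ, rfl⟩ := Ext.homEquiv₀.symm.surjective e
    have : φ = 0 := by
      ext x
      simpa using congrArg (fun ψ : M →ₗ[A] N => ψ x) (h φ.hom)
    rw [this]
    simp
  · exact e.eq_zero_of_projective

lemma not_van_of_hom (φ : M →ₗ[A] N) (hφ : φ ≠ 0) :
    ¬ Van (ModuleCat.of A N) (ModuleCat.of A M) := by
  intro h
  apply hφ
  have h0 := h 0 (Ext.mk₀ (ModuleCat.ofHom φ))
  have : ModuleCat.ofHom φ = 0 := by
    apply Ext.homEquiv₀.symm.injective
    simpa only [Ext.homEquiv₀_symm_apply, Ext.mk₀_zero] using h0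
  ext x
  simpa using congrArg (fun ψ => (ModuleCat.Hom.hom ψ) x) this

lemma not_pd_of_not_vanAt {S N' : ModuleCat.{0} A} {i k : ℕ} (hk : k ≤ i) (h : ¬ VanAt S N' i) :
    ¬ HasProjectiveDimensionLT N' k := by
  intro hp
  exact h fun e => e.eq_zero_of_hasProjectiveDimensionLT k hk

variable {W : Type} [AddCommGroup W] [Module A W]

/-- a four-term exact sequence `0 → M → N → P → W → 0` splits into two short ones -/
lemma four_term {a : M →ₗ[A] N} {b : N →ₗ[A] P} {c : P →ₗ[A] W}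
    (ha : Function.Injective a) (hab : Function.Exact a b) (hbc : Function.Exact b c)
    (hc : Function.Surjective c) :
    SE a b.rangeRestrict ∧ SE (LinearMap.range b).subtype c := by
  refine ⟨⟨ha, ?_, b.surjective_rangeRestrict⟩, ⟨Subtype.val_injective, ?_, hc⟩⟩
  · intro y
    rw [← hab y]
    constructor
    · intro h
      simpa using congrArg Subtype.val h
    · intro h
      ext
      simpa using h
  · intro y
    rw [hbc y]
    constructor
    · rintro ⟨x, rfl⟩
      exact ⟨⟨b x, x, rfl⟩, rfl⟩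
    · rintro ⟨⟨_, x, rfl⟩, rfl⟩
      exact ⟨x, rfl⟩

end

end Crest.Agent.R178
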