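import Crest.Agent.R178.Free
import Crest.Agent.R178.Homol

/-! The finite-dimensional algebra `A = End(G)ᵒᵖ`, `G` the free filtered `T`-module on
generators of degrees `0, …, 4`, and the exact functor `X ↦ Hom(G, X)`. -/

set_option autoImplicit false

namespace Crest.Agent.R178

open Finsupp

lemma H4.comp {X Y W : Rp} {u : X.X →ₗ[ℂ] Y.X} {v : Y.X →ₗ[ℂ] W.X} (hv : H4 Y W v)
    (hu : H4 X Y u) : H4 X W (v ∘ₗ u) where
  fil := fun _ _ h => hv.fil _ _ (hu.fil _ _ h)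
  ch := fun x => by simp only [LinearMap.comp_apply, hu.ch x, hv.ch _]
  ce := fun x => by simp only [LinearMap.comp_apply, hu.ce x, hv.ce _]
  cf := fun x => by simp only [LinearMap.comp_apply, hu.cf x, hv.cf _]
  cl := fun x => by simp only [LinearMap.comp_apply, hu.cl x, hv.cl _]
  cy₁ := fun x => by simp only [LinearMap.comp_apply, hu.cy₁ x, hv.cy₁ _]
  cy₂ := fun x => by simp only [LinearMap.comp_apply, hu.cy₂ x, hv.cy₂ _]

lemma H4.id (X : Rp) : H4 X X LinearMap.id where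
  fil := fun _ _ h => h
  ch := fun _ => rfl
  ce := fun _ => rfl
  cf := fun _ => rfl
  cl := fun _ => rfl
  cy₁ := fun _ => rfl
  cy₂ := fun _ => rfl

/-- the space of morphisms -/
def HomS (X Y : Rp) : Submodule ℂ (X.X →ₗ[ℂ] Y.X) where
  carrier := {u | H4 X Y u}
  add_mem' := fun {u v} hu hv =>
    { fil := fun _ _ h => Submodule.add_mem _ (hu.fil _ _ h) (hv.fil _ _ h)
      ch := fun x => by simp only [LinearMap.add_apply, hu.ch x, hv.ch x, map_add]
      ce := fun x => by simp only [LinearMap.add_apply, hu.ce x, hv.ce x, map_add]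
      cf := fun x => by simp only [LinearMap.add_apply, hu.cf x, hv.cf x, map_add]
      cl := fun x => by simp only [LinearMap.add_apply, hu.cl x, hv.cl x, map_add]
      cy₁ := fun x => by simp only [LinearMap.add_apply, hu.cy₁ x, hv.cy₁ x, map_add]
      cy₂ := fun x => by simp only [LinearMap.add_apply, hu.cy₂ x, hv.cy₂ x, map_add] }
  zero_mem' :=
    { fil := fun _ _ _ => Submodule.zero_mem _
      ch := fun x => by simp
      ce := fun x => by simp
      cf := fun x => by simp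
      cl := fun x => by simp
      cy₁ := fun x => by simp
      cy₂ := fun x => by simp }
  smul_mem' := fun c {u} hu =>
    { fil := fun _ _ h => Submodule.smul_mem _ _ (hu.fil _ _ h)
      ch := fun x => by simp only [LinearMap.smul_apply, hu.ch x, map_smul]
      ce := fun x => by simp only [LinearMap.smul_apply, hu.ce x, map_smul]
      cf := fun x => by simp only [LinearMap.smul_apply, hu.cf x, map_smul]
      cl := fun x => by simp only [LinearMap.smul_apply, hu.cl x, map_smul]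
      cy₁ := fun x => by simp only [LinearMap.smul_apply, hu.cy₁ x, map_smul]
      cy₂ := fun x => by simp only [LinearMap.smul_apply, hu.cy₂ x, map_smul] }

lemma hom_ext {V X : Rp} {φ ψ : (Q V).X →ₗ[ℂ] X.X} (hφ : H4 (Q V) X φ) (hψ : H4 (Q V) X ψ)
    (h : ∀ v, φ (ι V v) = ψ (ι V v)) : φ = ψ := by
  have := lift_unique (φ := φ - ψ) ((HomS (Q V) X).sub_mem hφ hψ) (fun v => by simp [h v])
  exact sub_eq_zero.mp this

/-- the generating filtered vector space, with one basis vector in each degree `0, …, 4` -/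
noncomputable abbrev VG : Rp where
  X := Fin 5 → ℂ
  Fil := fun j =>
    { carrier := {v | ∀ i : Fin 5, j < (i : ℕ) → v i = 0}
      add_mem' := fun ha hb i hi => by simp [ha i hi, hb i hi]
      zero_mem' := fun _ _ => rfl
      smul_mem' := fun c _ ha i hi => by simp [ha i hi] }
  op := fun _ => 0

lemma mono_VG : Mono VG := fun _ _ hv i hi => hv i (by omega)

lemma finFil_VG : FinFil VG :=
  ⟨fun _ hj _ hv => funext fun i => hv i (by omega), fun _ => inferInstance⟩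

/-- the generator -/
noncomputable def G : Rp := Q VG

/-- the `i`-th free generator of `G` -/
noncomputable def gen (i : Fin 5) : G.X := ι VG (Pi.single i 1)

lemma gen_mem (i : Fin 5) : gen i ∈ G.Fil (i : ℕ) := by
  apply filMap_ι VG
  intro k hk
  rw [Pi.single_eq_of_ne]
  rintro rfl
  omega

lemma r4_G : R4 G := r4_Q mono_VG

lemma G_ext {X : Rp} {φ ψ : G.X →ₗ[ℂ] X.X} (hφ : H4 G X φ) (hψ : H4 G X ψ)
    (h : ∀ i, φ (gen i) = ψ (gen i)) : φ = ψ := by
  refine hom_ext (V := VG) hφ hψ fun v => ?_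
  have : φ ∘ₗ ι VG = ψ ∘ₗ ι VG := (Pi.basisFun ℂ (Fin 5)).ext fun i => by
    rw [Pi.basisFun_apply]
    exact h i
  exact LinearMap.congr_fun this v

lemma G_lift {X : Rp} (hX : R4 X) (x : Fin 5 → X.X) (hx : ∀ i : Fin 5, x i ∈ X.Fil (i : ℕ)) :
    ∃ φ : G.X →ₗ[ℂ] X.X, H4 G X φ ∧ ∀ i, φ (gen i) = x i := by
  obtain ⟨φ, hφ, hφ'⟩ := exists_lift (V := VG) hX (u := (Pi.basisFun ℂ (Fin 5)).constr ℂ x) (by
    intro j v hv
    rw [Module.Basis.constr_apply_fintype]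
    refine Submodule.sum_mem _ fun i _ => ?_
    by_cases hi : j < (i : ℕ)
    · simp [hv i hi]
    · exact Submodule.smul_mem _ _ (hX.mono.le (not_lt.mp hi) (hx i)))
  refine ⟨φ, hφ, fun i => ?_⟩
  refine (hφ' _).trans ?_
  simp

/-- endomorphisms of `G` -/
def EndG : Subalgebra ℂ (Module.End ℂ G.X) where
  carrier := {u | H4 G G u}
  mul_mem' := fun hu hv => H4.comp hu hv
  add_mem' := fun hu hv => (HomS G G).add_mem hu hv
  algebraMap_mem' := fun c => by
    rw [Algebra.algebraMap_eq_smul_one]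
    exact (HomS G G).smul_mem c (H4.id G)

/-- the finite-dimensional algebra -/
abbrev A : Type := EndGᵐᵒᵖ

/-- the functor `Hom(G, -)` on objects -/
def Hm (X : Rp) : Type := HomS G X

noncomputable instance (X : Rp) : AddCommGroup (Hm X) := inferInstanceAs (AddCommGroup (HomS G X))

noncomputable instance (X : Rp) : Module ℂ (Hm X) := inferInstanceAs (Module ℂ (HomS G X))

noncomputable instance (X : Rp) : SMul A (Hm X) :=
  ⟨fun a φ => ⟨φ.1 ∘ₗ a.unop.1, H4.comp φ.2 a.unop.2⟩⟩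

lemma Hm.ext {X : Rp} {φ ψ : Hm X} (h : ∀ g, φ.1 g = ψ.1 g) : φ = ψ :=
  Subtype.ext (LinearMap.ext h)

lemma Hm.smul_apply {X : Rp} (a : A) (φ : Hm X) (g : G.X) : (a • φ).1 g = φ.1 (a.unop.1 g) := rfl

lemma Hm.add_apply {X : Rp} (φ ψ : Hm X) (g : G.X) : (φ + ψ).1 g = φ.1 g + ψ.1 g := rfl

noncomputable instance (X : Rp) : Module A (Hm X) where
  one_smul := fun _ => Hm.ext fun _ => rfl
  mul_smul := fun _ _ _ => Hm.ext fun _ => rfl
  smul_zero := fun _ => Hm.ext fun _ => rfl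
  smul_add := fun _ _ _ => Hm.ext fun _ => rfl
  add_smul := fun _ _ φ => Hm.ext fun _ => φ.1.map_add _ _
  zero_smul := fun φ => Hm.ext fun _ => φ.1.map_zero

instance (X : Rp) : IsScalarTower ℂ A (Hm X) :=
  ⟨fun c _ φ => Hm.ext fun _ => φ.1.map_smul c _⟩

/-- the functor `Hom(G, -)` on maps -/
noncomputable def hmap {X Y : Rp} {u : X.X →ₗ[ℂ] Y.X} (hu : H4 X Y u) : Hm X →ₗ[A] Hm Y where
  toFun := fun φ => ⟨u ∘ₗ φ.1, H4.comp hu φ.2⟩
  map_add' := fun _ _ => Hm.ext fun _ => u.map_add _ _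
  map_smul' := fun _ _ => Hm.ext fun _ => rfl

lemma hmap_apply {X Y : Rp} {u : X.X →ₗ[ℂ] Y.X} (hu : H4 X Y u) (φ : Hm X) (g : G.X) :
    (hmap hu φ).1 g = u (φ.1 g) := rfl

lemma finDim_Hm {X : Rp} (h : ∀ i : Fin 5, FiniteDimensional ℂ (X.Fil (i : ℕ))) :
    FiniteDimensional ℂ (Hm X) := by
  let φ : Hm X →ₗ[ℂ] (∀ i : Fin 5, X.Fil (i : ℕ)) :=
    { toFun := fun f i => ⟨f.1 (gen i), f.2.fil _ _ (gen_mem i)⟩
      map_add' := fun _ _ => rfl
      map_smul' := fun _ _ => rfl }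
  refine FiniteDimensional.of_injective φ ?_
  intro f f' hf
  exact Subtype.ext (G_ext f.2 f'.2 fun i => congrArg Subtype.val (congrFun hf i))

/-- `Hom(G, G)` is the regular module -/
noncomputable def regEquiv : Hm G ≃ₗ[A] A where
  toFun := fun φ => MulOpposite.op ⟨φ.1, φ.2⟩
  invFun := fun a => ⟨a.unop.1, a.unop.2⟩
  map_add' := fun _ _ => rfl
  map_smul' := fun _ _ => rfl
  left_inv := fun _ => rfl
  right_inv := fun _ => rfl

lemma finDim_A : FiniteDimensional ℂ A := by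
  have := finDim_Hm (X := G) fun i => finDim_Q finFil_VG _
  exact (regEquiv.restrictScalars ℂ).finiteDimensional

lemma hmap_inj {X Y : Rp} {u : X.X →ₗ[ℂ] Y.X} (hu : H4 X Y u) (inj : ∀ x, u x = 0 → x = 0) :
    Function.Injective (hmap hu) := by
  rw [injective_iff_map_eq_zero]
  intro φ hφ
  refine Hm.ext fun g => inj _ ?_
  rw [← hmap_apply hu, hφ]
  rfl

lemma hmap_exact {X₁ X₂ X₃ : Rp} (h₁ : R4 X₁) {u : X₁.X →ₗ[ℂ] X₂.X} {v : X₂.X →ₗ[ℂ] X₃.X}
    (hu : H4 X₁ X₂ u) (hv : H4 X₂ X₃ v) (comp : ∀ x, v (u x) = 0)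
    (ex : ∀ j, 0 ≤ j → ∀ x ∈ X₂.Fil j, v x = 0 → ∃ y ∈ X₁.Fil j, u y = x) :
    Function.Exact (hmap hu) (hmap hv) := by
  intro φ
  constructor
  · intro hφ
    have h0 : ∀ i, v (φ.1 (gen i)) = 0 := fun i => by
      rw [← hmap_apply hv, hφ]; rfl
    choose y hy hy' using fun i : Fin 5 =>
      ex _ (Int.natCast_nonneg _) _ (φ.2.fil _ _ (gen_mem i)) (h0 i)
    obtain ⟨ψ, hψ, hψ'⟩ := G_lift h₁ y hy
    refine ⟨⟨ψ, hψ⟩, Subtype.ext (G_ext (H4.comp hu hψ) φ.2 fun i => ?_)⟩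
    rw [← hy' i, ← hψ' i]
    rfl
  · rintro ⟨ψ, rfl⟩
    exact Hm.ext fun g => comp _

lemma hmap_surj {X₂ X₃ : Rp} (h₂ : R4 X₂) {v : X₂.X →ₗ[ℂ] X₃.X} (hv : H4 X₂ X₃ v)
    (sur : ∀ j, 0 ≤ j → ∀ z ∈ X₃.Fil j, ∃ x ∈ X₂.Fil j, v x = z) :
    Function.Surjective (hmap hv) := by
  intro φ
  choose y hy hy' using fun i : Fin 5 =>
    sur _ (Int.natCast_nonneg _) _ (φ.2.fil _ _ (gen_mem i))
  obtain ⟨ψ, hψ, hψ'⟩ := G_lift h₂ y hy
  refine ⟨⟨ψ, hψ⟩, Subtype.ext (G_ext (H4.comp hv hψ) φ.2 fun i => ?_)⟩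
  rw [← hy' i, ← hψ' i]
  rfl

lemma se_of_ses {X₁ X₂ X₃ : Rp} (h₁ : R4 X₁) (h₂ : R4 X₂) {u : X₁.X →ₗ[ℂ] X₂.X}
    {v : X₂.X →ₗ[ℂ] X₃.X} (hu : H4 X₁ X₂ u) (hv : H4 X₂ X₃ v) (h : SES X₁ X₂ X₃ u v) :
    SE (hmap hu) (hmap hv) :=
  ⟨hmap_inj hu h.inj, hmap_exact h₁ hu hv h.comp fun j _ x hx => h.ex j x hx,
    hmap_surj h₂ hv fun j _ z hz => h.sur j z hz⟩

end Crest.Agent.R178
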