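import Crest.Agent.R178.Top

/-! Universal property and functoriality of `J`; the free filtered `T`-module on a filtered
vector space. -/

set_option autoImplicit false

namespace Crest.Agent.R178

open Finsupp

open LinearMap in
/-- the map out of `J Y 1` determined by a map of filtered `sl₂`-modules -/
noncomputable def jlift {Y : Rp} (X : Rp) (u : Y.X →ₗ[ℂ] X.X) :
    ((ℕ →₀ Y.X) × (Y.X × Y.X)) →ₗ[ℂ] X.X :=
  coprod (lift (X.op .l) u) (coprod (X.op .y₁ ∘ₗ u) (X.op .y₂ ∘ₗ u))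

lemma jlift_apply {Y : Rp} (X : Rp) (u : Y.X →ₗ[ℂ] X.X) (x : (ℕ →₀ Y.X) × (Y.X × Y.X)) :
    jlift X u x = lift (X.op .l) u x.1 + (X.op .y₁ (u x.2.1) + X.op .y₂ (u x.2.2)) := rfl

lemma lift_pmap_comm {Y X : Rp} {u : Y.X →ₗ[ℂ] X.X} {s : Op} (hs : Comm Y X u s)
    (hl : ∀ x, X.op .l (X.op s x) = X.op s (X.op .l x)) (p : ℕ →₀ Y.X) :
    lift (X.op .l) u (pmap (Y.op s) p) = X.op s (lift (X.op .l) u p) := by
  refine lin_ext (u := lift (X.op .l) u ∘ₗ pmap (Y.op s)) (v := X.op s ∘ₗ lift (X.op .l) u) ?_ p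
  intro m x
  simp only [LinearMap.comp_apply, pmap_single, lift_single, hs x]
  exact (pow_comm_apply (fun x => (hl x).symm) m _).symm

lemma y_pow {Y X : Rp} (hX : R4 X) {u : Y.X →ₗ[ℂ] X.X} (hu : H3 Y X u) (m : ℕ) :
    ∀ w : Y.X × Y.X, X.op .y₁ (u ((LL Y ^ m) w).1) + X.op .y₂ (u ((LL Y ^ m) w).2) =
      X.op .y₁ ((X.op .l ^ m) (u w.1)) + X.op .y₂ ((X.op .l ^ m) (u w.2)) := by
  induction m with
  | zero => intro w; simp
  | succ m ih =>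
    intro w
    have ch := pow_comm_apply (T := X.op .l) (T' := X.op .l) (fun x => (hX.lh x).symm) m
    have ce := pow_comm_apply (T := X.op .l) (T' := X.op .l) (fun x => (hX.le x).symm) m
    have cf := pow_comm_apply (T := X.op .l) (T' := X.op .l) (fun x => (hX.lf x).symm) m
    rw [pow_succ, Module.End.mul_apply, ih, LL_apply, pow_succ', Module.End.mul_apply,
      Module.End.mul_apply, hX.y₁l, hX.y₂l, ch, ch, ce, cf]
    simp only [map_add, map_sub, map_smul, hu.ch _, hu.ce _, hu.cf _]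
    module

lemma h4_jlift {Y X : Rp} (hX : R4 X) {u : Y.X →ₗ[ℂ] X.X} (hu : H3 Y X u) :
    H4 (J Y 1) X (jlift X u) where
  fil := by
    rintro j x ⟨h1, h2, h3⟩
    rw [jlift_apply]
    refine Submodule.add_mem _ (filMap_lift hu.fil hX.dl (fun _ => 0) _ _ h1)
      (Submodule.add_mem _ ?_ ?_)
    · simpa using hX.dy₁ _ _ (hu.fil _ _ h2)
    · simpa using hX.dy₂ _ _ (hu.fil _ _ h3)
  ch := by
    intro x
    simp only [J_h, jlift_apply, phH_apply, lift_pmap_comm hu.ch hX.lh, map_add, map_sub,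
      hu.ch _, hX.hy₁, hX.hy₂]
  ce := by
    intro x
    simp only [J_e, jlift_apply, phE_apply, lift_pmap_comm hu.ce hX.le, map_add, map_sub,
      hu.ce _, hX.ey₁, hX.ey₂]
    abel
  cf := by
    intro x
    simp only [J_f, jlift_apply, phF_apply, lift_pmap_comm hu.cf hX.lf, map_add, map_sub,
      hu.cf _, hX.fy₁, hX.fy₂]
    abel
  cl := by
    intro x
    have := y_pow hX hu 1 x.2
    simp only [pow_one] at this
    simp only [J_l, jlift_apply, lift_sh, map_add, map_sub, Prod.fst_sub, Prod.snd_sub,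
      hX.ly₁, hX.ly₂]
    rw [sub_add_sub_comm, this]
    abel
  cy₁ := by
    rintro ⟨p, w⟩
    simp only [J_y₁, jlift_apply, map_zero, zero_add, map_add, hX.y₁₁, hX.y₁₂, add_zero,
      Module.End.one_apply]
    refine lin_ext (u := (LinearMap.coprod (X.op .y₁ ∘ₗ u) (X.op .y₂ ∘ₗ u)) ∘ₗ lift (LL Y) _)
      (v := X.op .y₁ ∘ₗ lift (X.op .l) u) ?_ p
    intro m x
    simp [y_pow hX hu]
  cy₂ := by
    rintro ⟨p, w⟩
    simp only [J_y₂, jlift_apply, map_zero, zero_add, map_add, hX.y₂₁, hX.y₂₂, add_zero,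
      Module.End.one_apply]
    refine lin_ext (u := (LinearMap.coprod (X.op .y₁ ∘ₗ u) (X.op .y₂ ∘ₗ u)) ∘ₗ lift (LL Y) _)
      (v := X.op .y₂ ∘ₗ lift (X.op .l) u) ?_ p
    intro m x
    simp [y_pow hX hu]

/-- `J` on maps -/
noncomputable def jmap {Y Y' : Rp} (u : Y.X →ₗ[ℂ] Y'.X) :
    ((ℕ →₀ Y.X) × (Y.X × Y.X)) →ₗ[ℂ] ((ℕ →₀ Y'.X) × (Y'.X × Y'.X)) :=
  LinearMap.prodMap (pmap u) (LinearMap.prodMap u u)

lemma jmap_apply {Y Y' : Rp} (u : Y.X →ₗ[ℂ] Y'.X) (x : (ℕ →₀ Y.X) × (Y.X × Y.X)) :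
    jmap u x = (pmap u x.1, (u x.2.1, u x.2.2)) := rfl

lemma pmap_pmap_comm {Y Y' : Rp} {u : Y.X →ₗ[ℂ] Y'.X} {s : Op} (hs : Comm Y Y' u s)
    (p : ℕ →₀ Y.X) : pmap u (pmap (Y.op s) p) = pmap (Y'.op s) (pmap u p) := by
  ext m
  simp only [pmap_apply, hs _]

lemma h4_jmap {Y Y' : Rp} {u : Y.X →ₗ[ℂ] Y'.X} (hu : H3 Y Y' u) :
    H4 (J Y 1) (J Y' 1) (jmap u) := by
  have hL : ∀ w, LinearMap.prodMap u u (LL Y w) = LL Y' (LinearMap.prodMap u u w) := by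
    intro w
    simp only [LL_apply, LinearMap.prodMap_apply, map_add, map_sub, map_smul, hu.ch _, hu.ce _,
      hu.cf _]
  refine
    { fil := ?_, ch := ?_, ce := ?_, cf := ?_, cl := ?_, cy₁ := ?_, cy₂ := ?_ }
  · rintro j x ⟨h1, h2, h3⟩
    exact ⟨filMap_pmap hu.fil (fun _ => 0) (fun _ => 0) _ _ h1, hu.fil _ _ h2, hu.fil _ _ h3⟩
  · intro x
    simp only [J_h, jmap_apply, phH_apply, pmap_pmap_comm hu.ch, map_add, map_sub, hu.ch _]
  · intro x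
    simp only [J_e, jmap_apply, phE_apply, pmap_pmap_comm hu.ce, map_sub, hu.ce _]
  · intro x
    simp only [J_f, jmap_apply, phF_apply, pmap_pmap_comm hu.cf, map_sub, hu.cf _]
  · intro x
    have := hL x.2
    simp only [LinearMap.prodMap_apply] at this
    simp only [J_l, jmap_apply, pmap_sh, Prod.fst_sub, Prod.snd_sub, map_sub, ← this,
      Prod.mk_sub_mk]
  · rintro ⟨p, w⟩
    simp only [J_y₁, jmap_apply, map_zero, Module.End.one_apply]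
    congr 1
    refine lin_ext (u := LinearMap.prodMap u u ∘ₗ lift (LL Y) _)
      (v := lift (LL Y') _ ∘ₗ pmap u) ?_ p
    intro m x
    simp only [LinearMap.comp_apply, lift_single, pmap_single, pow_comm_apply hL]
    simp
  · rintro ⟨p, w⟩
    simp only [J_y₂, jmap_apply, map_zero, Module.End.one_apply]
    congr 1
    refine lin_ext (u := LinearMap.prodMap u u ∘ₗ lift (LL Y) _)
      (v := lift (LL Y') _ ∘ₗ pmap u) ?_ p
    intro m x
    simp only [LinearMap.comp_apply, lift_single, pmap_single, pow_comm_apply hL]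
    simp

lemma ses_J {Y₁ Y₂ Y₃ : Rp} {u : Y₁.X →ₗ[ℂ] Y₂.X} {v : Y₂.X →ₗ[ℂ] Y₃.X}
    (h : SES Y₁ Y₂ Y₃ u v) : SES (J Y₁ 1) (J Y₂ 1) (J Y₃ 1) (jmap u) (jmap v) := by
  have hp := ses_poly h (fun _ => 0) (fun _ => 0) (fun _ => 0)
  refine ⟨?_, ?_, ?_, ?_, ?_, ?_⟩
  · rintro j x ⟨h1, h2, h3⟩
    exact ⟨hp.fu _ _ h1, h.fu _ _ h2, h.fu _ _ h3⟩
  · rintro j x ⟨h1, h2, h3⟩
    exact ⟨hp.fv _ _ h1, h.fv _ _ h2, h.fv _ _ h3⟩
  · intro x
    simp only [jmap_apply, hp.comp, h.comp]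
    rfl
  · rintro ⟨p, a, b⟩ hx
    simp only [jmap_apply, Prod.mk_eq_zero] at hx
    rw [hp.inj _ hx.1, h.inj _ hx.2.1, h.inj _ hx.2.2]
    rfl
  · rintro j ⟨p, a, b⟩ ⟨h1, h2, h3⟩ hx
    simp only [jmap_apply, Prod.mk_eq_zero] at hx
    obtain ⟨p', hp', rfl⟩ := hp.ex _ _ h1 hx.1
    obtain ⟨a', ha', rfl⟩ := h.ex _ _ h2 hx.2.1
    obtain ⟨b', hb', rfl⟩ := h.ex _ _ h3 hx.2.2
    exact ⟨(p', a', b'), ⟨hp', ha', hb'⟩, rfl⟩
  · rintro j ⟨p, a, b⟩ ⟨h1, h2, h3⟩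
    obtain ⟨p', hp', rfl⟩ := hp.sur _ _ h1
    obtain ⟨a', ha', rfl⟩ := h.sur _ _ h2
    obtain ⟨b', hb', rfl⟩ := h.sur _ _ h3
    exact ⟨(p', a', b'), ⟨hp', ha', hb'⟩, rfl⟩

lemma finDim_J {Y : Rp} (h : FinFil Y) (j : ℤ) : FiniteDimensional ℂ ((J Y 1).Fil j) := by
  have h1 := (finFil_poly h (fun _ => 0)).2 j
  have h2 := h.2 (j + 1)
  let φ : (J Y 1).Fil j →ₗ[ℂ] (pFil Y.Fil j × (Y.Fil (j + 1) × Y.Fil (j + 1))) :=
    { toFun := fun x => (⟨x.1.1, x.2.1⟩, ⟨x.1.2.1, x.2.2.1⟩, ⟨x.1.2.2, x.2.2.2⟩)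
      map_add' := fun _ _ => rfl
      map_smul' := fun _ _ => rfl }
  refine FiniteDimensional.of_injective φ ?_
  rintro ⟨⟨p, a, b⟩, hx⟩ ⟨⟨p', a', b'⟩, hx'⟩ hxy
  simp only [φ, LinearMap.coe_mk, AddHom.coe_mk, Prod.mk.injEq, Subtype.mk.injEq] at hxy
  obtain ⟨rfl, rfl, rfl⟩ := hxy
  rfl

/-- the free filtered `T`-module on the filtered vector space `V` -/
noncomputable abbrev Q (V : Rp) : Rp := J (If (Ie (Ih V))) 1

/-- the inclusion of the generators -/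
noncomputable def ι (V : Rp) : V.X →ₗ[ℂ] (Q V).X :=
  LinearMap.inl ℂ _ _ ∘ₗ lsingle 0 ∘ₗ lsingle 0 ∘ₗ lsingle 0 ∘ₗ lsingle 0

lemma ι_apply (V : Rp) (v : V.X) :
    ι V v = (single 0 (single 0 (single 0 (single 0 v))), 0) := rfl

lemma filMap_ι (V : Rp) : FilMap V (Q V) (ι V) := by
  intro j v hv
  refine ⟨single_mem_pFil (single_mem_pFil (single_mem_pFil (single_mem_pFil ?_))),
    Submodule.zero_mem _⟩
  simpa using hv

lemma r4_Q {V : Rp} (h : Mono V) : R4 (Q V) := r4_J (r3_If (r2_Ie (r1_Ih h))) (adm_one _)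

lemma exists_lift {V X : Rp} (hX : R4 X) {u : V.X →ₗ[ℂ] X.X} (hu : FilMap V X u) :
    ∃ φ : (Q V).X →ₗ[ℂ] X.X, H4 (Q V) X φ ∧ ∀ v, φ (ι V v) = u v := by
  refine ⟨_, h4_jlift hX (h3_lift hX.toR3 (h2_lift hX.toR2 (h1_lift hX.toR1 hu))), ?_⟩
  intro v
  rw [ι_apply, jlift_apply]
  simp

lemma poly_ext {M N : Type} [AddCommGroup M] [Module ℂ M] [AddCommGroup N] [Module ℂ N]
    {φ : (ℕ →₀ M) →ₗ[ℂ] N} {T : Module.End ℂ N} (hT : ∀ p, φ (sh p) = T (φ p))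
    (h0 : ∀ x, φ (single 0 x) = 0) (p : ℕ →₀ M) : φ p = 0 := by
  refine lin_ext (v := 0) ?_ p
  intro m x
  induction m with
  | zero => simpa using h0 x
  | succ m ih =>
    rw [← sh_single, hT, ih]
    simp

lemma J_ext {Y X : Rp} {φ : (J Y 1).X →ₗ[ℂ] X.X} (hφ : H4 (J Y 1) X φ)
    (h3 : ∀ a, φ (single 0 a, 0) = 0) : φ = 0 := by
  have h4 : ∀ a, φ (a, 0) = 0 := by
    refine poly_ext (φ := φ ∘ₗ LinearMap.inl ℂ _ _) (T := X.op .l) ?_ h3
    intro p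
    have := hφ.cl (p, 0)
    simpa [J_l] using this
  have h5 : ∀ a, φ (0, (a, 0)) = 0 := by
    intro a
    have := hφ.cy₁ (single 0 a, 0)
    simpa [J_y₁, h4] using this
  have h6 : ∀ a, φ (0, (0, a)) = 0 := by
    intro a
    have := hφ.cy₂ (single 0 a, 0)
    simpa [J_y₂, h4] using this
  apply LinearMap.ext
  rintro ⟨p, a, b⟩
  have : ((p, a, b) : (J Y 1).X) = (p, 0) + (0, (a, 0)) + (0, (0, b)) := by simp
  rw [this, map_add, map_add, h4, h5, h6]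
  simp

lemma h3_restrict {Y X : Rp} {φ : (J Y 1).X →ₗ[ℂ] X.X} (hφ : H4 (J Y 1) X φ) :
    Comm Y X (φ ∘ₗ LinearMap.inl ℂ _ _ ∘ₗ lsingle 0) .h ∧
    Comm Y X (φ ∘ₗ LinearMap.inl ℂ _ _ ∘ₗ lsingle 0) .e ∧
    Comm Y X (φ ∘ₗ LinearMap.inl ℂ _ _ ∘ₗ lsingle 0) .f := by
  refine ⟨fun p => ?_, fun p => ?_, fun p => ?_⟩
  · simpa [J_h] using hφ.ch (single 0 p, 0)
  · simpa [J_e] using hφ.ce (single 0 p, 0)
  · simpa [J_f] using hφ.cf (single 0 p, 0)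

lemma lift_unique {V X : Rp} {φ : (Q V).X →ₗ[ℂ] X.X} (hφ : H4 (Q V) X φ)
    (h0 : ∀ v, φ (ι V v) = 0) : φ = 0 := by
  obtain ⟨ch, ce, cf⟩ := h3_restrict hφ
  set ψ := φ ∘ₗ LinearMap.inl ℂ _ _ ∘ₗ lsingle 0 with hψ
  have h1 : ∀ a : (Ih V).X, ψ (single 0 (single 0 a)) = 0 := by
    refine poly_ext (φ := ψ ∘ₗ lsingle 0 ∘ₗ lsingle 0) (T := X.op .h) ?_ h0
    intro p
    have := ch (single 0 (single 0 p))
    have e1 : (If (Ie (Ih V))).op .h (single 0 (single 0 p)) = single 0 (single 0 (sh p)) := by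
      refine (hF_single (Ie (Ih V)) 0 _).trans ?_
      have := hE_single (Ih V) 0 p
      simp only [Nat.cast_zero, mul_zero, zero_smul, add_zero, sub_zero] at this ⊢
      rw [this]
    rw [e1] at this
    exact this
  have h2 : ∀ a : (Ie (Ih V)).X, ψ (single 0 a) = 0 := by
    refine poly_ext (φ := ψ ∘ₗ lsingle 0) (T := X.op .e) ?_ h1
    intro p
    have := ce (single 0 p)
    rw [show (If (Ie (Ih V))).op .e (single 0 p) = single 0 (sh p) from eF_zero _ _] at this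
    exact this
  have h3 : ∀ a : (If (Ie (Ih V))).X, ψ a = 0 :=
    poly_ext (φ := ψ) (T := X.op .f) cf h2
  exact J_ext hφ h3

lemma finDim_Q {V : Rp} (h : FinFil V) (j : ℤ) : FiniteDimensional ℂ ((Q V).Fil j) :=
  finDim_J (finFil_poly (finFil_poly (finFil_poly h _) _) _) j

end Crest.Agent.R178
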