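import Crest.Agent.R178.Alg

/-! Projectivity of `Hom(G, Q V)` and the Chevalley–Eilenberg type resolutions. -/

set_option autoImplicit false

namespace Crest.Agent.R178

open Finsupp

/-- the filtration jumps exactly in degree `p` -/
structure Pure (V : Rp) (p : ℕ) : Prop where
  top : ∀ j : ℤ, (p : ℤ) ≤ j → ∀ x, x ∈ V.Fil j
  bot : ∀ j : ℤ, j < (p : ℤ) → ∀ x ∈ V.Fil j, x = 0

lemma Pure.mono {V : Rp} {p : ℕ} (h : Pure V p) : Mono V := by
  intro j x hx
  by_cases hj : (p : ℤ) ≤ j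
  · exact h.top _ (by omega) _
  · rw [h.bot j (by omega) x hx]
    exact Submodule.zero_mem _

lemma Pure.tw {V : Rp} {p : ℕ} (h : Pure V p) (c : ℂ) : Pure (tw c V) (p + 1) :=
  ⟨fun j hj x => h.top (j - 1) (by push_cast at hj; omega) x,
    fun j hj x hx => h.bot (j - 1) (by push_cast at hj; omega) x hx⟩

lemma Pure.deg {V : Rp} {p : ℕ} (h : Pure V p) (T : Module.End ℂ V.X) : Deg V T 1 := by
  intro j x hx
  by_cases hj : (p : ℤ) ≤ j
  · exact h.top _ (by omega) _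
  · rw [h.bot j (by omega) x hx, map_zero]
    exact Submodule.zero_mem _

/-- the one-dimensional test object in degree four -/
noncomputable abbrev Sr : Rp where
  X := ℂ
  Fil := fun j => if 4 ≤ j then ⊤ else ⊥
  op := fun _ => 0

lemma pure_Sr : Pure Sr 4 :=
  ⟨fun j hj x => by
      have : (4 : ℤ) ≤ j := hj
      simp [this],
    fun j hj x hx => by
      have : ¬ (4 : ℤ) ≤ j := not_le.mpr hj
      simpa [this] using hx⟩

lemma r4_Sr : R4 Sr := by
  have hd : ∀ d, Deg Sr 0 d := fun _ _ _ _ => Submodule.zero_mem _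
  refine ⟨⟨⟨⟨pure_Sr.mono, hd _⟩, hd _, ?_⟩, hd _, ?_, ?_⟩, hd _, hd _, hd _, ?_, ?_, ?_, ?_, ?_,
    ?_, ?_, ?_, ?_, ?_, ?_, ?_, ?_, ?_, ?_, ?_, ?_⟩ <;> intro x <;> simp

/-- the test module -/
noncomputable abbrev S : ModuleCat.{0} A := ModuleCat.of A (Hm Sr)

section
variable {V : Rp} {p : Fin 5} (hV : Pure V p) [FiniteDimensional ℂ V.X]
include hV

/-- `Q V` is a retract of a finite sum of copies of `G` -/
lemma retract_Q : ∃ (n : ℕ) (a : Fin n → Hm (Q V)) (b : Fin n → (Q V).X →ₗ[ℂ] G.X),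
    (∀ k, H4 (Q V) G (b k)) ∧ (∀ k i, i ≠ p → (a k).1 (gen i) = 0) ∧
    (∀ x, ∑ k, (a k).1 (b k x) = x) := by
  let β := Module.finBasis ℂ V.X
  have hQ := r4_Q hV.mono
  choose a ha ha' using fun k => G_lift hQ (Pi.single p (ι V (β k))) (by
    intro i
    by_cases hi : i = p
    · subst hi
      rw [Pi.single_eq_same]
      exact filMap_ι V _ _ (hV.top _ le_rfl _)
    · rw [Pi.single_eq_of_ne hi]
      exact Submodule.zero_mem _)
  choose b hb hb' using fun k => exists_lift (V := V) r4_G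
    (u := (β.coord k).smulRight (gen p)) (by
      intro j x hx
      by_cases hj : ((p : ℕ) : ℤ) ≤ j
      · exact Submodule.smul_mem _ _ (r4_G.mono.le hj (gen_mem p))
      · rw [hV.bot j (not_le.mp hj) x hx, map_zero]
        exact Submodule.zero_mem _)
  refine ⟨_, fun k => ⟨a k, ha k⟩, b, hb, fun k i hi => ?_, ?_⟩
  · exact (ha' k i).trans (Pi.single_eq_of_ne hi _)
  · have : ∑ k, a k ∘ₗ b k = LinearMap.id := by
      refine hom_ext ((HomS (Q V) (Q V)).sum_mem fun k _ => H4.comp (ha k) (hb k)) (H4.id _) ?_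
      intro v
      rw [LinearMap.sum_apply]
      simp only [LinearMap.comp_apply, hb', LinearMap.smulRight_apply, map_smul, ha',
        Pi.single_eq_same, LinearMap.id_apply]
      simp only [← map_smul, ← map_sum]
      congr 1
      simp
    intro x
    have := LinearMap.congr_fun this x
    rw [LinearMap.sum_apply] at this
    exact this

lemma decomp_Q : ∃ (n : ℕ) (a : Fin n → Hm (Q V)) (i : Hm (Q V) →ₗ[A] (Fin n → A)),
    (∀ k j, j ≠ p → (a k).1 (gen j) = 0) ∧ ∀ f, ∑ k, i f k • a k = f := by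
  obtain ⟨n, a, b, hb, ha, hab⟩ := retract_Q hV
  refine ⟨n, a, LinearMap.pi fun k => regEquiv.toLinearMap ∘ₗ hmap (hb k), ha, fun f => ?_⟩
  refine Hm.ext fun g => ?_
  rw [← hab (f.1 g)]
  have : ∀ (s : Finset (Fin n)) (φ : Fin n → Hm (Q V)),
      (∑ k ∈ s, φ k).1 g = ∑ k ∈ s, (φ k).1 g := by
    intro s φ
    induction s using Finset.induction_on with
    | empty => rfl
    | insert k s hk ih => rw [Finset.sum_insert hk, Finset.sum_insert hk, Hm.add_apply, ih]
  rw [this]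
  rfl

lemma projective_Q : Module.Projective A (Hm (Q V)) := by
  obtain ⟨n, a, i, -, h⟩ := decomp_Q hV
  refine Module.Projective.of_split i (Fintype.linearCombination A a) ?_
  ext f
  simpa [Fintype.linearCombination_apply] using h f

lemma hom_S_zero (hp : p ≠ 4) (φ : Hm (Q V) →ₗ[A] Hm Sr) : φ = 0 := by
  obtain ⟨n, a, i, ha, h⟩ := decomp_Q hV
  obtain ⟨e, he, he'⟩ := G_lift r4_G (Pi.single p (gen p)) (by
    intro j
    by_cases hj : j = p
    · subst hj
      rw [Pi.single_eq_same]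
      exact gen_mem _
    · rw [Pi.single_eq_of_ne hj]
      exact Submodule.zero_mem _)
  let ε : A := MulOpposite.op ⟨e, he⟩
  have h1 : ∀ k, ε • a k = a k := by
    intro k
    refine Subtype.ext (G_ext (ε • a k).2 (a k).2 fun j => ?_)
    change (a k).1 (e (gen j)) = _
    rw [he']
    by_cases hj : j = p
    · subst hj
      rw [Pi.single_eq_same]
    · rw [Pi.single_eq_of_ne hj, map_zero, ha k j hj]
  have h2 : ∀ s : Hm Sr, ε • s = 0 := by
    intro s
    refine Subtype.ext (G_ext (ε • s).2 (0 : Hm Sr).2 fun j => ?_)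
    change s.1 (e (gen j)) = 0
    rw [he']
    by_cases hj : j = p
    · subst hj
      rw [Pi.single_eq_same]
      refine pure_Sr.bot _ ?_ _ (s.2.fil _ _ (gen_mem j))
      have := j.2
      have : (j : ℕ) ≠ 4 := fun h => hp (Fin.ext h)
      omega
    · rw [Pi.single_eq_of_ne hj, map_zero]
  ext f
  rw [← h f, map_sum]
  refine Finset.sum_eq_zero fun k _ => ?_
  rw [map_smul, ← h1 k, map_smul, h2, smul_zero]

end

lemma not_van_Q {V : Rp} (hV : Pure V 4) [Nontrivial V.X] :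
    ¬ Van S (ModuleCat.of A (Hm (Q V))) := by
  obtain ⟨v, hv⟩ := exists_ne (0 : V.X)
  obtain ⟨l, hl⟩ := Module.Projective.exists_dual_ne_zero ℂ hv
  obtain ⟨ψ, hψ, hψ'⟩ := exists_lift (V := V) r4_Sr (u := l) (by
    intro j x hx
    by_cases hj : ((4 : ℕ) : ℤ) ≤ j
    · exact pure_Sr.top _ hj _
    · rw [hV.bot j (not_le.mp hj) x hx, map_zero]
      exact Submodule.zero_mem _)
  obtain ⟨a, ha, ha'⟩ := G_lift (r4_Q hV.mono) (Pi.single 4 (ι V v)) (by
    intro i
    by_cases hi : i = 4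
    · subst hi
      rw [Pi.single_eq_same]
      exact filMap_ι V _ _ (hV.top _ le_rfl _)
    · rw [Pi.single_eq_of_ne hi]
      exact Submodule.zero_mem _)
  refine not_van_of_hom (hmap hψ) fun h0 => hl ?_
  have : (hmap hψ ⟨a, ha⟩).1 (gen 4) = 0 := by rw [h0]; rfl
  change ψ (a (gen 4)) = 0 at this
  rwa [ha', Pi.single_eq_same, hψ'] at this

/-- `N` has a finite resolution by projectives generated in degrees `≤ q`, with exactly the
last term reaching degree `q` -/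
structure Good (X : Rp) (q : ℕ) : Prop where
  rel : R4 X
  fin : FinPD (ModuleCat.of A (Hm X))
  van : q ≤ 3 → Van S (ModuleCat.of A (Hm X))
  nvan : q = 4 → ¬ Van S (ModuleCat.of A (Hm X))

lemma Good.ses {X₁ X₂ X₃ : Rp} {q : ℕ} (h₁ : Good X₁ (q + 1)) (h₂ : Good X₂ q) (h₃ : R4 X₃)
    {u : X₁.X →ₗ[ℂ] X₂.X} {v : X₂.X →ₗ[ℂ] X₃.X} (hu : H4 X₁ X₂ u) (hv : H4 X₂ X₃ v)
    (h : SES X₁ X₂ X₃ u v) : Good X₃ (q + 1) := by
  have hs := se_of_ses h₁.rel h₂.rel hu hv h
  exact ⟨h₃, hs.fin₃ h₁.fin h₂.fin, fun hq => hs.van₃ (h₁.van hq) (h₂.van (by omega)),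
    fun hq hv => h₁.nvan hq (hs.van₁ (h₂.van (by omega)) hv)⟩

variable {V : Rp} [FiniteDimensional ℂ V.X] [Nontrivial V.X]

lemma good_Q {p : ℕ} (hV : Pure V p) (hp : p ≤ 4) : Good (Q V) p := by
  have hV' : Pure V ((⟨p, by omega⟩ : Fin 5) : ℕ) := hV
  have := projective_Q hV'
  refine ⟨r4_Q hV.mono, finPD_of_projective, fun h => van_of_projective (hom_S_zero hV' ?_),
    fun h => not_van_Q (h ▸ hV)⟩
  intro h4
  have := congrArg Fin.val h4
  simp at this
  omega

lemma good_1 {p : ℕ} (hV : Pure V p) (h : R1 V) (hp : p + 1 ≤ 4) :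
    Good (J (If (Ie V)) 1) (p + 1) :=
  (good_Q (V := tw 0 V) (hV.tw 0) hp).ses (good_Q hV (by omega))
    (r4_J (r3_If (r2_Ie h)) (adm_one _))
    (h4_jmap (h3_pmap (h2_pmap (h1_dl h))))
    (h4_jmap (h3_pmap (h2_pmap (h1_lift h fun _ _ hx => hx))))
    (ses_J (ses_poly (ses_poly (ses_dl h.dh 0 _ _) _ _ _) _ _ _))

lemma good_2 {p : ℕ} (hV : Pure V p) (h : R2 V) (hp : p + 2 ≤ 4) :
    Good (J (If V) 1) (p + 2) :=
  (good_1 (V := tw 2 V) (hV.tw 2) (r1_tw h.toR1 2) hp).ses (good_1 hV h.toR1 (by omega))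
    (r4_J (r3_If h) (adm_one _))
    (h4_jmap (h3_pmap (h2_dl h)))
    (h4_jmap (h3_pmap (h2_lift (u := LinearMap.id) h ⟨fun _ _ hx => hx, fun _ => rfl⟩)))
    (ses_J (ses_poly (ses_dl h.de 2 _ _) _ _ _))

lemma good_3 {p : ℕ} (hV : Pure V p) (h : R3 V) (hp : p + 3 ≤ 4) :
    Good (J V 1) (p + 3) :=
  (good_2 (V := tw (-2) V) (hV.tw (-2)) (r2_tw h.toR2 (-2)) hp).ses (good_2 hV h.toR2 (by omega))
    (r4_J h (adm_one _))
    (h4_jmap (h3_dl h))
    (h4_jmap (h3_lift (u := LinearMap.id) h ⟨⟨fun _ _ hx => hx, fun _ => rfl⟩, fun _ => rfl⟩))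
    (ses_J (ses_dl h.df (-2) _ _))

end Crest.Agent.R178
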