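import Crest.Agent.R178.Rep

/-! Stepwise induction `0 ⊂ ⟨h⟩ ⊂ ⟨h, e⟩ ⊂ sl₂` on filtered modules. -/

set_option autoImplicit false

namespace Crest.Agent.R178

open Finsupp

/-- filtered module over `⟨h⟩` -/
structure R1 (X : Rp) : Prop where
  mono : Mono X
  dh : Deg X (X.op .h) 1

/-- filtered module over the Borel subalgebra `⟨h, e⟩` -/
structure R2 (X : Rp) : Prop extends R1 X where
  de : Deg X (X.op .e) 1
  he : ∀ x, X.op .h (X.op .e x) = X.op .e (X.op .h x) + (2 : ℂ) • X.op .e x

/-- filtered module over `sl₂` -/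
structure R3 (X : Rp) : Prop extends R2 X where
  df : Deg X (X.op .f) 1
  hf : ∀ x, X.op .h (X.op .f x) = X.op .f (X.op .h x) - (2 : ℂ) • X.op .f x
  ef : ∀ x, X.op .e (X.op .f x) = X.op .f (X.op .e x) + X.op .h x

/-- maps of filtered `⟨h⟩`-modules -/
structure H1 (X Y : Rp) (u : X.X →ₗ[ℂ] Y.X) : Prop where
  fil : FilMap X Y u
  ch : Comm X Y u .h

/-- maps of filtered `⟨h, e⟩`-modules -/
structure H2 (X Y : Rp) (u : X.X →ₗ[ℂ] Y.X) : Prop extends H1 X Y u where
  ce : Comm X Y u .e

/-- maps of filtered `sl₂`-modules -/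
structure H3 (X Y : Rp) (u : X.X →ₗ[ℂ] Y.X) : Prop extends H2 X Y u where
  cf : Comm X Y u .f

/-- induction to `⟨h⟩` -/
noncomputable abbrev Ih (X : Rp) : Rp :=
  poly X fun s => match s with
    | .h => sh
    | _ => 0

/-- `h` on `X[e]` -/
noncomputable def hE (X : Rp) : Module.End ℂ (ℕ →₀ X.X) :=
  mk fun m => lsingle m ∘ₗ (X.op .h + (2 * m : ℂ) • 1)

@[simp] lemma hE_single (X : Rp) (m : ℕ) (x : X.X) :
    hE X (single m x) = single m (X.op .h x + (2 * m : ℂ) • x) := by
  simp [hE]

/-- induction from `⟨h⟩` to `⟨h, e⟩` -/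
noncomputable abbrev Ie (X : Rp) : Rp :=
  poly X fun s => match s with
    | .h => hE X
    | .e => sh
    | _ => 0

/-- `h` on `X[f]` -/
noncomputable def hF (X : Rp) : Module.End ℂ (ℕ →₀ X.X) :=
  mk fun m => lsingle m ∘ₗ (X.op .h - (2 * m : ℂ) • 1)

@[simp] lemma hF_single (X : Rp) (m : ℕ) (x : X.X) :
    hF X (single m x) = single m (X.op .h x - (2 * m : ℂ) • x) := by
  simp [hF]

/-- `e` on `X[f]` -/
noncomputable def eF (X : Rp) : Module.End ℂ (ℕ →₀ X.X) :=
  mk fun m => lsingle m ∘ₗ X.op .e +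
    lsingle (m - 1) ∘ₗ ((m : ℂ) • (X.op .h - (m - 1 : ℂ) • 1))

lemma eF_single (X : Rp) (m : ℕ) (x : X.X) :
    eF X (single m x) = single m (X.op .e x) +
      single (m - 1) ((m : ℂ) • (X.op .h x - (m - 1 : ℂ) • x)) := by
  rw [eF, mk_single]
  rfl

lemma eF_zero (X : Rp) (x : X.X) : eF X (single 0 x) = single 0 (X.op .e x) := by
  simp [eF_single]

lemma eF_succ (X : Rp) (m : ℕ) (x : X.X) :
    eF X (single (m + 1) x) = single (m + 1) (X.op .e x) +
      single m ((m + 1 : ℂ) • (X.op .h x - (m : ℂ) • x)) := by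
  simp [eF_single]

/-- induction from `⟨h, e⟩` to `sl₂` -/
noncomputable abbrev If (X : Rp) : Rp :=
  poly X fun s => match s with
    | .h => hF X
    | .e => eF X
    | .f => sh
    | _ => 0

lemma deg_add_smul {X : Rp} (hX : Mono X) {T : Module.End ℂ X.X} (hT : Deg X T 1) (c : ℂ)
    {j : ℤ} {x : X.X} (hx : x ∈ X.Fil j) : T x + c • x ∈ X.Fil (j + 1) :=
  Submodule.add_mem _ (hT _ _ hx) (Submodule.smul_mem _ _ (hX _ _ hx))

lemma deg_sub_smul {X : Rp} (hX : Mono X) {T : Module.End ℂ X.X} (hT : Deg X T 1) (c : ℂ)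
    {j : ℤ} {x : X.X} (hx : x ∈ X.Fil j) : T x - c • x ∈ X.Fil (j + 1) :=
  Submodule.sub_mem _ (hT _ _ hx) (Submodule.smul_mem _ _ (hX _ _ hx))

lemma r1_Ih {X : Rp} (h : Mono X) : R1 (Ih X) := ⟨mono_poly h _, deg_sh X _⟩

lemma r2_Ie {X : Rp} (h : R1 X) : R2 (Ie X) where
  mono := mono_poly h.mono _
  dh := by
    intro j p hp
    refine map_mem_of_single (hE X) ?_ hp
    intro m x hx
    rw [hE_single]
    apply single_mem_pFil
    convert deg_add_smul h.mono h.dh (2 * m : ℂ) hx using 2
    ring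
  de := deg_sh X _
  he := by
    refine lin_ext (u := hE X ∘ₗ sh) (v := sh ∘ₗ hE X + (2 : ℂ) • sh) ?_
    intro m x
    simp only [LinearMap.comp_apply, LinearMap.add_apply, LinearMap.smul_apply, sh_single,
      hE_single, smul_single, ← single_add]
    congr 1
    push_cast
    module

lemma r3_If {X : Rp} (h : R2 X) : R3 (If X) where
  mono := mono_poly h.mono _
  dh := by
    intro j p hp
    refine map_mem_of_single (hF X) ?_ hp
    intro m x hx
    rw [hF_single]
    apply single_mem_pFil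
    convert deg_sub_smul h.mono h.dh (2 * m : ℂ) hx using 2
    ring
  de := by
    intro j p hp
    refine map_mem_of_single (eF X) ?_ hp
    rintro (_ | m) x hx
    · rw [eF_zero]
      apply single_mem_pFil
      convert h.de _ _ hx using 2
      ring
    · rw [eF_succ]
      refine Submodule.add_mem _ (single_mem_pFil ?_) (single_mem_pFil ?_)
      · convert h.de _ _ hx using 2
        ring
      · apply Submodule.smul_mem
        convert h.mono _ _ (deg_sub_smul h.mono h.dh (m : ℂ) hx) using 2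
        push_cast; ring
  he := by
    refine lin_ext (u := hF X ∘ₗ eF X) (v := eF X ∘ₗ hF X + (2 : ℂ) • eF X) ?_
    rintro (_ | m) x
    · simp only [LinearMap.comp_apply, LinearMap.add_apply, LinearMap.smul_apply, eF_zero,
        hF_single, smul_single, ← single_add]
      congr 1
      simp [h.he]
    · simp only [LinearMap.comp_apply, LinearMap.add_apply, LinearMap.smul_apply, eF_succ,
        hF_single, smul_single, map_add, smul_add]
      rw [add_add_add_comm, ← single_add, ← single_add]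
      congr 2
      · simp only [h.he, map_sub, map_smul]
        module
      · simp only [map_sub, map_smul]
        push_cast
        module
  df := deg_sh X _
  hf := by
    refine lin_ext (u := hF X ∘ₗ sh) (v := sh ∘ₗ hF X - (2 : ℂ) • sh) ?_
    intro m x
    simp only [LinearMap.comp_apply, LinearMap.sub_apply, LinearMap.smul_apply, sh_single,
      hF_single, smul_single, ← single_sub]
    congr 1
    push_cast
    module
  ef := by
    refine lin_ext (u := eF X ∘ₗ sh) (v := sh ∘ₗ eF X + hF X) ?_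
    rintro (_ | m) x
    · simp only [LinearMap.comp_apply, LinearMap.add_apply, sh_single, eF_succ, eF_zero,
        hF_single]
      congr 2
      simp
    · simp only [LinearMap.comp_apply, LinearMap.add_apply, sh_single, eF_succ, hF_single,
        map_add]
      rw [add_assoc (single (m + 1 + 1) _), ← single_add]
      congr 2
      push_cast
      module

lemma mono_tw {X : Rp} (h : Mono X) (c : ℂ) : Mono (tw c X) := by
  intro j x hx
  have := h _ _ hx
  show x ∈ X.Fil (j + 1 - 1)
  convert this using 2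
  ring

lemma deg_tw {X : Rp} {T : Module.End ℂ X.X} (h : Deg X T 1) (c : ℂ) : Deg (tw c X) T 1 := by
  intro j x hx
  have := h _ _ hx
  show T x ∈ X.Fil (j + 1 - 1)
  convert this using 2
  ring

lemma r1_tw {X : Rp} (h : R1 X) (c : ℂ) : R1 (tw c X) where
  mono := mono_tw h.mono c
  dh := deg_tw (T := X.op .h + c • 1) (fun j x hx => by
    simpa using deg_add_smul h.mono h.dh c hx) c

lemma r2_tw {X : Rp} (h : R2 X) (c : ℂ) : R2 (tw c X) where
  toR1 := r1_tw h.toR1 c
  de := deg_tw h.de c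
  he := by
    intro x
    show (X.op .h + c • 1) (X.op .e x) = X.op .e ((X.op .h + c • 1) x) + (2 : ℂ) • X.op .e x
    simp only [LinearMap.add_apply, LinearMap.smul_apply, Module.End.one_apply, h.he, map_add,
      map_smul]
    module

lemma r3_tw {X : Rp} (h : R3 X) : R3 (tw 0 X) where
  toR2 := r2_tw h.toR2 0
  df := deg_tw h.df 0
  hf := by
    intro x
    show (X.op .h + (0 : ℂ) • 1) (X.op .f x) =
      X.op .f ((X.op .h + (0 : ℂ) • 1) x) - (2 : ℂ) • X.op .f x
    simp [h.hf]
  ef := by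
    intro x
    show X.op .e (X.op .f x) = X.op .f (X.op .e x) + (X.op .h + (0 : ℂ) • 1) x
    simp [h.ef]

/-! commutation of powers -/

lemma R2.h_e_pow {X : Rp} (h : R2 X) (m : ℕ) (x : X.X) :
    X.op .h ((X.op .e ^ m) x) = (X.op .e ^ m) (X.op .h x + (2 * m : ℂ) • x) := by
  induction m with
  | zero => simp
  | succ m ih =>
    simp only [pow_succ', Module.End.mul_apply, h.he, ih, map_add, map_smul]
    push_cast
    module

lemma R3.h_f_pow {X : Rp} (h : R3 X) (m : ℕ) (x : X.X) :
    X.op .h ((X.op .f ^ m) x) = (X.op .f ^ m) (X.op .h x - (2 * m : ℂ) • x) := by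
  induction m with
  | zero => simp
  | succ m ih =>
    simp only [pow_succ', Module.End.mul_apply, h.hf, ih, map_sub, map_smul]
    push_cast
    module

lemma R3.e_f_pow {X : Rp} (h : R3 X) (m : ℕ) (x : X.X) :
    X.op .e ((X.op .f ^ (m + 1)) x) = (X.op .f ^ (m + 1)) (X.op .e x) +
      (X.op .f ^ m) ((m + 1 : ℂ) • (X.op .h x - (m : ℂ) • x)) := by
  induction m with
  | zero => simp [h.ef]
  | succ m ih =>
    rw [pow_succ' _ (m + 1), Module.End.mul_apply, h.ef, ih, h.h_f_pow]
    simp only [pow_succ', Module.End.mul_apply, map_add, map_sub, map_smul]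
    push_cast
    module

/-! universal properties: existence -/

lemma h1_lift {X Y : Rp} (hY : R1 Y) {u : X.X →ₗ[ℂ] Y.X} (hu : FilMap X Y u) :
    H1 (Ih X) Y (lift (Y.op .h) u) :=
  ⟨filMap_lift hu hY.dh _, lift_sh _ _⟩

lemma h2_lift {X Y : Rp} (hY : R2 Y) {u : X.X →ₗ[ℂ] Y.X} (hu : H1 X Y u) :
    H2 (Ie X) Y (lift (Y.op .e) u) where
  fil := filMap_lift hu.fil hY.de _
  ch := by
    refine lin_ext (u := lift (Y.op .e) u ∘ₗ hE X) (v := Y.op .h ∘ₗ lift (Y.op .e) u) ?_
    intro m x
    simp only [LinearMap.comp_apply, hE_single, lift_single, hY.h_e_pow, map_add, map_smul,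
      hu.ch x]
  ce := lift_sh _ _

lemma h3_lift {X Y : Rp} (hY : R3 Y) {u : X.X →ₗ[ℂ] Y.X} (hu : H2 X Y u) :
    H3 (If X) Y (lift (Y.op .f) u) where
  fil := filMap_lift hu.fil hY.df _
  ch := by
    refine lin_ext (u := lift (Y.op .f) u ∘ₗ hF X) (v := Y.op .h ∘ₗ lift (Y.op .f) u) ?_
    intro m x
    simp only [LinearMap.comp_apply, hF_single, lift_single, hY.h_f_pow, map_sub, map_smul,
      hu.ch x]
  ce := by
    refine lin_ext (u := lift (Y.op .f) u ∘ₗ eF X) (v := Y.op .e ∘ₗ lift (Y.op .f) u) ?_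
    rintro (_ | m) x
    · simp [eF_zero, hu.ce x]
    · simp only [LinearMap.comp_apply, eF_succ, lift_single, hY.e_f_pow, map_add, map_sub,
        map_smul, hu.ch x, hu.ce x]
  cf := lift_sh _ _

/-! functoriality -/

lemma h2_pmap {X Y : Rp} {u : X.X →ₗ[ℂ] Y.X} (hu : H1 X Y u) : H2 (Ie X) (Ie Y) (pmap u) where
  fil := filMap_pmap hu.fil _ _
  ch := by
    refine lin_ext (u := pmap u ∘ₗ hE X) (v := hE Y ∘ₗ pmap u) ?_
    intro m x
    simp only [LinearMap.comp_apply, hE_single, pmap_single, map_add, map_smul, hu.ch x]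
  ce := pmap_sh _

lemma h3_pmap {X Y : Rp} {u : X.X →ₗ[ℂ] Y.X} (hu : H2 X Y u) : H3 (If X) (If Y) (pmap u) where
  fil := filMap_pmap hu.fil _ _
  ch := by
    refine lin_ext (u := pmap u ∘ₗ hF X) (v := hF Y ∘ₗ pmap u) ?_
    intro m x
    simp only [LinearMap.comp_apply, hF_single, pmap_single, map_sub, map_smul, hu.ch x]
  ce := by
    refine lin_ext (u := pmap u ∘ₗ eF X) (v := eF Y ∘ₗ pmap u) ?_
    intro m x
    simp only [LinearMap.comp_apply, eF_single, pmap_single, map_add, map_sub, map_smul, hu.ch x,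
      hu.ce x]
  cf := pmap_sh _

/-! the three basic resolutions -/

lemma dl_sh {M : Type} [AddCommGroup M] [Module ℂ M] (T : Module.End ℂ M) (p : ℕ →₀ M) :
    dl T (sh p) = sh (dl T p) := by
  simp [dl, pmap_sh]

lemma h1_dl {X : Rp} (h : R1 X) : H1 (Ih (tw 0 X)) (Ih X) (dl (X.op .h)) :=
  ⟨(ses_dl h.dh 0 _ _).fu, dl_sh _⟩

lemma h2_dl {X : Rp} (h : R2 X) : H2 (Ie (tw 2 X)) (Ie X) (dl (X.op .e)) where
  fil := (ses_dl h.de 2 _ _).fu
  ch := by
    refine lin_ext (u := dl (X.op .e) ∘ₗ hE (tw 2 X)) (v := hE X ∘ₗ dl (X.op .e)) ?_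
    intro m x
    simp only [LinearMap.comp_apply, hE_single, dl_single, map_sub]
    congr 2
    · simp only [LinearMap.add_apply, LinearMap.smul_apply, Module.End.one_apply]
      push_cast
      module
    · simp only [LinearMap.add_apply, LinearMap.smul_apply, Module.End.one_apply, map_add,
        map_smul, h.he]
  ce := dl_sh _

lemma h3_dl {X : Rp} (h : R3 X) : H3 (If (tw (-2) X)) (If X) (dl (X.op .f)) where
  fil := (ses_dl h.df (-2) _ _).fu
  ch := by
    refine lin_ext (u := dl (X.op .f) ∘ₗ hF (tw (-2) X)) (v := hF X ∘ₗ dl (X.op .f)) ?_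
    intro m x
    simp only [LinearMap.comp_apply, hF_single, dl_single, map_sub]
    congr 2
    · simp only [LinearMap.add_apply, LinearMap.smul_apply, Module.End.one_apply]
      push_cast
      module
    · simp only [LinearMap.add_apply, LinearMap.smul_apply, Module.End.one_apply, map_add,
        map_smul, h.hf]
      module
  ce := by
    refine lin_ext (u := dl (X.op .f) ∘ₗ eF (tw (-2) X)) (v := eF X ∘ₗ dl (X.op .f)) ?_
    rintro (_ | m) x
    · simp only [LinearMap.comp_apply, eF_zero, eF_succ, dl_single, map_sub, h.ef, single_add]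
      simp
    · simp only [LinearMap.comp_apply, eF_succ, dl_single, map_sub, map_add]
      have e2 : ∀ y, (tw (-2) X).op .h y = X.op .h y - (2 : ℂ) • y := by
        intro y
        show (X.op .h + (-2 : ℂ) • 1) y = _
        simp [sub_eq_add_neg]
      simp only [e2, h.ef, h.hf, map_smul, map_sub, ← smul_single, single_add, single_sub]
      push_cast
      module
  cf := dl_sh _

end Crest.Agent.R178
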