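import Mathlib

/-! Filtered vector spaces with six operators, polynomial extensions `X[t] = ℕ →₀ X`,
strict short exact sequences. -/

set_option autoImplicit false

namespace Crest.Agent.R178

/-- names of the six operators -/
inductive Op
  | h | e | f | l | y₁ | y₂

/-- a complex vector space with a `ℤ`-indexed family of subspaces and six operators -/
structure Rp where
  X : Type
  [acg : AddCommGroup X]
  [mod : Module ℂ X]
  Fil : ℤ → Submodule ℂ X
  op : Op → Module.End ℂ X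

attribute [instance] Rp.acg Rp.mod

/-- filtration preserving maps -/
def FilMap (X Y : Rp) (u : X.X →ₗ[ℂ] Y.X) : Prop := ∀ j x, x ∈ X.Fil j → u x ∈ Y.Fil j

/-- commutation with the operator `s` -/
def Comm (X Y : Rp) (u : X.X →ₗ[ℂ] Y.X) (s : Op) : Prop := ∀ x, u (X.op s x) = Y.op s (u x)

/-- an endomorphism raising the filtration by at most `d` -/
def Deg (X : Rp) (T : Module.End ℂ X.X) (d : ℤ) : Prop := ∀ j x, x ∈ X.Fil j → T x ∈ X.Fil (j + d)

/-- the filtration is increasing -/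
def Mono (X : Rp) : Prop := ∀ j x, x ∈ X.Fil j → x ∈ X.Fil (j + 1)

lemma Mono.le {X : Rp} (h : Mono X) {i j : ℤ} (hij : i ≤ j) {x : X.X} (hx : x ∈ X.Fil i) :
    x ∈ X.Fil j := by
  induction j, hij using Int.leInduction with
  | base => exact hx
  | succ n _ ih => exact h n x ih

lemma Deg.pow {X : Rp} {T : Module.End ℂ X.X} (h : Deg X T 1) (m : ℕ) : Deg X (T ^ m) m := by
  induction m with
  | zero => intro j x hx; simpa using hx
  | succ m ih =>
    intro j x hx
    have := h _ _ (ih j x hx)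
    rw [pow_succ', Module.End.mul_apply]
    convert this using 2
    push_cast; ring

/-- strict short exact sequences -/
structure SES (X₁ X₂ X₃ : Rp) (u : X₁.X →ₗ[ℂ] X₂.X) (v : X₂.X →ₗ[ℂ] X₃.X) : Prop where
  fu : FilMap X₁ X₂ u
  fv : FilMap X₂ X₃ v
  comp : ∀ x, v (u x) = 0
  inj : ∀ x, u x = 0 → x = 0
  ex : ∀ j x, x ∈ X₂.Fil j → v x = 0 → ∃ y ∈ X₁.Fil j, u y = x
  sur : ∀ j z, z ∈ X₃.Fil j → ∃ x ∈ X₂.Fil j, v x = z

section Poly

open Finsupp

variable {M N P : Type} [AddCommGroup M] [Module ℂ M] [AddCommGroup N] [Module ℂ N]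
  [AddCommGroup P] [Module ℂ P]

/-- linear map out of `ℕ →₀ M` given on each monomial degree -/
noncomputable def mk (g : ℕ → M →ₗ[ℂ] N) : (ℕ →₀ M) →ₗ[ℂ] N := Finsupp.lsum ℂ g

@[simp] lemma mk_single (g : ℕ → M →ₗ[ℂ] N) (m : ℕ) (x : M) : mk g (single m x) = g m x := by
  simp [mk]

/-- multiplication by the variable -/
noncomputable def sh : Module.End ℂ (ℕ →₀ M) := mk fun m => lsingle (m + 1)

@[simp] lemma sh_single (m : ℕ) (x : M) : sh (single m x) = single (m + 1) x := by
  simp [sh]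

/-- coefficientwise map -/
noncomputable def pmap (u : M →ₗ[ℂ] N) : (ℕ →₀ M) →ₗ[ℂ] (ℕ →₀ N) := mk fun m => lsingle m ∘ₗ u

@[simp] lemma pmap_single (u : M →ₗ[ℂ] N) (m : ℕ) (x : M) :
    pmap u (single m x) = single m (u x) := by
  simp [pmap]

lemma lin_ext {u v : (ℕ →₀ M) →ₗ[ℂ] N} (h : ∀ m x, u (single m x) = v (single m x)) (p : ℕ →₀ M) :
    u p = v p := by
  have : u = v := Finsupp.lhom_ext h
  rw [this]

lemma pmap_apply (u : M →ₗ[ℂ] N) (p : ℕ →₀ M) (m : ℕ) : pmap u p m = u (p m) := by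
  refine lin_ext (u := lapply m ∘ₗ pmap u) (v := u ∘ₗ lapply m) ?_ p
  intro k x
  by_cases hk : k = m
  · subst hk; simp
  · simp [hk]

lemma sh_apply_succ (p : ℕ →₀ M) (m : ℕ) : sh p (m + 1) = p m := by
  refine lin_ext (u := lapply (m + 1) ∘ₗ sh) (v := lapply m) ?_ p
  intro k x
  by_cases hk : k = m
  · subst hk; simp
  · simp [hk]

/-- evaluation of the variable at the operator `T` -/
noncomputable def lift (T : Module.End ℂ N) (u : M →ₗ[ℂ] N) : (ℕ →₀ M) →ₗ[ℂ] N :=
  mk fun m => (T ^ m) ∘ₗ u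

@[simp] lemma lift_single (T : Module.End ℂ N) (u : M →ₗ[ℂ] N) (m : ℕ) (x : M) :
    lift T u (single m x) = (T ^ m) (u x) := by
  simp [lift]

lemma lift_sh (T : Module.End ℂ N) (u : M →ₗ[ℂ] N) (p : ℕ →₀ M) :
    lift T u (sh p) = T (lift T u p) := by
  refine lin_ext (u := lift T u ∘ₗ sh) (v := T ∘ₗ lift T u) ?_ p
  intro m x
  simp [pow_succ']

lemma pmap_sh (u : M →ₗ[ℂ] N) (p : ℕ →₀ M) : pmap u (sh p) = sh (pmap u p) := by
  refine lin_ext (u := pmap u ∘ₗ sh) (v := sh ∘ₗ pmap u) ?_ p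
  intro m x
  simp

lemma sh_pow_single (k m : ℕ) (x : M) : (sh ^ k : Module.End ℂ (ℕ →₀ M)) (single m x) =
    single (m + k) x := by
  induction k with
  | zero => simp
  | succ k ih => rw [pow_succ', Module.End.mul_apply, ih, sh_single, add_assoc]

/-- the map `t - T` -/
noncomputable def dl (T : Module.End ℂ M) : Module.End ℂ (ℕ →₀ M) := sh - pmap T

@[simp] lemma dl_single (T : Module.End ℂ M) (m : ℕ) (x : M) :
    dl T (single m x) = single (m + 1) x - single m (T x) := by
  simp [dl]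

lemma dl_inj (T : Module.End ℂ M) (q : ℕ →₀ M) (hq : dl T q = 0) : q = 0 := by
  have h1 : ∀ m, q m = T (q (m + 1)) := by
    intro m
    have := congrArg (fun p : ℕ →₀ M => p (m + 1)) hq
    simp only [dl, LinearMap.sub_apply, Finsupp.sub_apply, sh_apply_succ, pmap_apply,
      Finsupp.coe_zero, Pi.zero_apply] at this
    exact sub_eq_zero.mp this
  have h2 : ∀ k m, q m = (T ^ k) (q (m + k)) := by
    intro k
    induction k with
    | zero => intro m; simp
    | succ k ih =>
      intro m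
      rw [ih m, h1 (m + k), pow_succ, Module.End.mul_apply, add_assoc]
  ext m
  obtain ⟨b, hb⟩ := q.support.bddAbove
  have : q (m + (b + 1)) = 0 := by
    by_contra hne
    have := hb (Finset.mem_coe.mpr (Finsupp.mem_support_iff.mpr hne))
    omega
  rw [h2 (b + 1) m, this]
  simp

lemma lift_dl (T : Module.End ℂ M) (q : ℕ →₀ M) : lift T LinearMap.id (dl T q) = 0 := by
  refine lin_ext (u := lift T LinearMap.id ∘ₗ dl T) (v := 0) ?_ q
  intro m x
  simp [pow_succ]

/-- total-degree filtration on `X[t]` -/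
def pFil (F : ℤ → Submodule ℂ M) (j : ℤ) : Submodule ℂ (ℕ →₀ M) where
  carrier := {p | ∀ m : ℕ, p m ∈ F (j - m)}
  add_mem' := fun ha hb m => (F _).add_mem (ha m) (hb m)
  zero_mem' := fun _ => (F _).zero_mem
  smul_mem' := fun c _ ha m => (F _).smul_mem c (ha m)

lemma mem_pFil {F : ℤ → Submodule ℂ M} {j : ℤ} {p : ℕ →₀ M} :
    p ∈ pFil F j ↔ ∀ m : ℕ, p m ∈ F (j - m) := Iff.rfl

lemma single_mem_pFil {F : ℤ → Submodule ℂ M} {j : ℤ} {m : ℕ} {x : M} (hx : x ∈ F (j - m)) :
    single m x ∈ pFil F j := by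
  intro k
  by_cases hk : m = k
  · subst hk; simpa using hx
  · simp [hk]

/-- induction over the monomials of an element of `pFil` -/
lemma pFil_induction {F : ℤ → Submodule ℂ M} {j : ℤ} {C : (ℕ →₀ M) → Prop} (h0 : C 0)
    (hadd : ∀ p q, C p → C q → C (p + q)) (hs : ∀ (m : ℕ) x, x ∈ F (j - m) → C (single m x))
    {p : ℕ →₀ M} (hp : p ∈ pFil F j) : C p := by
  rw [← p.sum_single, Finsupp.sum]
  exact Finset.sum_induction _ C hadd h0 fun m _ => hs m _ (hp m)

lemma map_mem_of_single {F : ℤ → Submodule ℂ M} {j : ℤ} {W : Submodule ℂ N}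
    (g : (ℕ →₀ M) →ₗ[ℂ] N) (hs : ∀ (m : ℕ) x, x ∈ F (j - m) → g (single m x) ∈ W)
    {p : ℕ →₀ M} (hp : p ∈ pFil F j) : g p ∈ W :=
  pFil_induction (C := fun p => g p ∈ W) (by simp)
    (fun p q hp hq => by simpa using W.add_mem hp hq) hs hp

lemma pFil_exists {F : ℤ → Submodule ℂ M} {j : ℤ} {W : Submodule ℂ N}
    (g : N →ₗ[ℂ] P) (g' : (ℕ →₀ M) →ₗ[ℂ] P)
    (hs : ∀ (m : ℕ) x, x ∈ F (j - m) → ∃ y ∈ W, g y = g' (single m x))
    {p : ℕ →₀ M} (hp : p ∈ pFil F j) : ∃ y ∈ W, g y = g' p := by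
  refine pFil_induction (C := fun p => ∃ y ∈ W, g y = g' p) ⟨0, W.zero_mem, by simp⟩ ?_ hs hp
  rintro p q ⟨a, ha, ha'⟩ ⟨b, hb, hb'⟩
  exact ⟨a + b, W.add_mem ha hb, by simp [ha', hb']⟩

end Poly

open Finsupp

/-- `X[t]` with prescribed operators -/
noncomputable abbrev poly (X : Rp) (o : Op → Module.End ℂ (ℕ →₀ X.X)) : Rp where
  X := ℕ →₀ X.X
  Fil := pFil X.Fil
  op := o

lemma mono_poly {X : Rp} (h : Mono X) (o) : Mono (poly X o) := by
  intro j p hp m
  have := h _ _ (hp m)
  convert this using 2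
  ring

lemma deg_sh (X : Rp) (o) : Deg (poly X o) sh 1 := by
  intro j p hp
  refine map_mem_of_single _ ?_ hp
  intro m x hx
  rw [sh_single]
  apply single_mem_pFil
  convert hx using 2
  push_cast; ring

lemma filMap_pmap {X Y : Rp} {u : X.X →ₗ[ℂ] Y.X} (hu : FilMap X Y u) (o o') :
    FilMap (poly X o) (poly Y o') (pmap u) := by
  intro j p hp m
  rw [pmap_apply]
  exact hu _ _ (hp m)

lemma filMap_single0 (X : Rp) (o) : FilMap X (poly X o) (lsingle 0) := by
  intro j x hx
  apply single_mem_pFil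
  simpa using hx

lemma filMap_lift {X Y : Rp} {u : X.X →ₗ[ℂ] Y.X} (hu : FilMap X Y u) {T : Module.End ℂ Y.X}
    (hT : Deg Y T 1) (o) : FilMap (poly X o) Y (lift T u) := by
  intro j p hp
  refine map_mem_of_single _ ?_ hp
  intro m x hx
  rw [lift_single]
  have := hT.pow m _ _ (hu _ _ hx)
  simpa using this

lemma ses_poly {X₁ X₂ X₃ : Rp} {u : X₁.X →ₗ[ℂ] X₂.X} {v : X₂.X →ₗ[ℂ] X₃.X}
    (h : SES X₁ X₂ X₃ u v) (o₁ o₂ o₃) :
    SES (poly X₁ o₁) (poly X₂ o₂) (poly X₃ o₃) (pmap u) (pmap v) where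
  fu := filMap_pmap h.fu _ _
  fv := filMap_pmap h.fv _ _
  comp := by
    intro p; ext m
    simp [pmap_apply, h.comp]
  inj := by
    intro p hp; ext m
    apply h.inj
    rw [← pmap_apply, hp]; rfl
  ex := by
    intro j p hp hv
    have hv' : ∀ m, v (p m) = 0 := fun m => by rw [← pmap_apply, hv]; rfl
    choose y hy hy' using fun m => h.ex _ _ (hp m) (hv' m)
    refine ⟨∑ m ∈ p.support, single m (y m), ?_, ?_⟩
    · exact Submodule.sum_mem _ fun m _ => single_mem_pFil (hy m)
    · rw [map_sum]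
      simp only [pmap_single, hy']
      exact p.sum_single
  sur := by
    intro j p hp
    refine pFil_exists (pmap v) LinearMap.id ?_ hp
    intro m z hz
    obtain ⟨x, hx, rfl⟩ := h.sur _ _ hz
    exact ⟨single m x, single_mem_pFil hx, by simp⟩

/-- shift the filtration by one and add the scalar `c` to the operator `h` -/
noncomputable abbrev tw (c : ℂ) (X : Rp) : Rp where
  X := X.X
  Fil := fun j => X.Fil (j - 1)
  op := fun s => match s with
    | .h => X.op .h + c • 1
    | s => X.op s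

lemma dl_division {X : Rp} {T : Module.End ℂ X.X} (hT : Deg X T 1) (m : ℕ) :
    ∀ (j : ℤ) (x : X.X), x ∈ X.Fil (j - m) → ∃ q ∈ pFil (fun i => X.Fil (i - 1)) j,
      dl T q = single m x - single 0 ((T ^ m) x) := by
  induction m with
  | zero => intro j x _; exact ⟨0, Submodule.zero_mem _, by simp⟩
  | succ m ih =>
    intro j x hx
    have hTx : T x ∈ X.Fil (j - m) := by
      have := hT _ _ hx
      convert this using 2
      push_cast; ring
    obtain ⟨q, hq, hq'⟩ := ih j (T x) hTx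
    refine ⟨single m x + q, Submodule.add_mem _ (single_mem_pFil ?_) hq, ?_⟩
    · convert hx using 2
      push_cast; ring
    · rw [map_add, hq', dl_single, pow_succ, Module.End.mul_apply]
      abel

/-- the basic strict sequence `0 → X[t](-1) → X[t] → X → 0` -/
lemma ses_dl {X : Rp} {T : Module.End ℂ X.X} (hT : Deg X T 1) (c : ℂ) (o₁ o₂) :
    SES (poly (tw c X) o₁) (poly X o₂) X (dl T) (lift T LinearMap.id) where
  fu := by
    intro j p hp
    refine map_mem_of_single _ ?_ hp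
    intro m x hx
    rw [dl_single]
    refine Submodule.sub_mem _ (single_mem_pFil ?_) (single_mem_pFil ?_)
    · have hx' : x ∈ X.Fil (j - m - 1) := hx
      convert hx' using 2
      push_cast; ring
    · have := hT _ _ hx
      simpa using this
  fv := filMap_lift (fun _ _ h => h) hT _
  comp := lift_dl T
  inj := dl_inj T
  ex := by
    intro j p hp hv
    obtain ⟨q, hq, hq'⟩ := pFil_exists (W := pFil (fun i => X.Fil (i - 1)) j) (dl T)
      (LinearMap.id - lsingle 0 ∘ₗ lift T LinearMap.id) (fun m x hx => by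
        simpa using dl_division hT m j x hx) hp
    refine ⟨q, hq, ?_⟩
    rw [hq']
    simp only [LinearMap.sub_apply, LinearMap.id_apply, LinearMap.comp_apply]
    rw [hv]
    simp
  sur := by
    intro j z hz
    exact ⟨single 0 z, single_mem_pFil (by simpa using hz), by simp⟩

/-- finiteness of the filtration -/
def FinFil (X : Rp) : Prop :=
  (∀ j, j < 0 → ∀ x ∈ X.Fil j, x = 0) ∧ ∀ j, FiniteDimensional ℂ (X.Fil j)

lemma finFil_poly {X : Rp} (h : FinFil X) (o) : FinFil (poly X o) := by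
  constructor
  · intro j hj p hp
    ext m
    exact h.1 _ (by omega) _ (hp m)
  · intro j
    have := h.2
    let φ : pFil X.Fil j →ₗ[ℂ] (∀ m : Fin (j.toNat + 1), X.Fil (j - (m : ℕ))) :=
      { toFun := fun p m => ⟨p.1 m, p.2 m⟩
        map_add' := fun _ _ => rfl
        map_smul' := fun _ _ => rfl }
    refine FiniteDimensional.of_injective φ ?_
    rw [injective_iff_map_eq_zero]
    intro p hp
    ext m
    by_cases hm : m < j.toNat + 1
    · exact congrArg Subtype.val (congrFun hp ⟨m, hm⟩)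
    · exact h.1 _ (by omega) _ (p.2 m)

end Crest.Agent.R178
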