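import Crest.Agent.R178.Sym

/-! The translation step: projective dimensions of `Hom(G, V n)` are finite and unbounded. -/

set_option autoImplicit false

namespace Crest.Agent.R178

open Finsupp CategoryTheory

section
variable {B M N P W : Type} [Ring B] [AddCommGroup M] [AddCommGroup N] [AddCommGroup P]
  [AddCommGroup W] [Module B M] [Module B N] [Module B P] [Module B W]

/-- four-term exact sequences -/
structure E4 (a : M →ₗ[B] N) (b : N →ₗ[B] P) (c : P →ₗ[B] W) : Prop where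
  ha : Function.Injective a
  hab : Function.Exact a b
  hbc : Function.Exact b c
  hc : Function.Surjective c

lemma E4.fin₃ {a : M →ₗ[B] N} {b : N →ₗ[B] P} {c : P →ₗ[B] W} (h : E4 a b c)
    (h₁ : FinPD (ModuleCat.of B M)) (h₂ : FinPD (ModuleCat.of B N))
    (h₄ : FinPD (ModuleCat.of B W)) : FinPD (ModuleCat.of B P) := by
  obtain ⟨e1, e2⟩ := four_term h.ha h.hab h.hbc h.hc
  exact e2.fin₂ (e1.fin₃ h₁ h₂) h₄

lemma E4.van₂ {S' : ModuleCat.{0} B} {a : M →ₗ[B] N} {b : N →ₗ[B] P} {c : P →ₗ[B] W}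
    (h : E4 a b c) (h₁ : Van S' (ModuleCat.of B M)) (h₃ : Van S' (ModuleCat.of B P))
    (h₄ : Van S' (ModuleCat.of B W)) : Van S' (ModuleCat.of B N) := by
  obtain ⟨e1, e2⟩ := four_term h.ha h.hab h.hbc h.hc
  exact e1.van₂ h₁ (e2.van₁ h₃ h₄)

end

/-- the twist `L - n` -/
noncomputable def θ (n : ℕ) : Module.End ℂ (U (n + 1) × U (n + 1)) :=
  LL (W n) - (n : ℂ) • LinearMap.id

lemma θ_apply (n : ℕ) (w : U (n + 1) × U (n + 1)) : θ n w = LL (W n) w - (n : ℂ) • w := rfl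

lemma θ_eq (n : ℕ) (w : U (n + 1) × U (n + 1)) :
    θ n w = (2 : ℂ) • sMap n (rMap n w) - (2 * (n + 1) : ℂ) • w := by
  rw [θ_apply, LL_eq]
  module

lemma r3_W (n : ℕ) : R3 (W n) := r3_sf (r4_V (n + 1)).toR3

lemma pure_W (n : ℕ) : Pure (W n) 1 := pure_sf (pure_V (n + 1))

lemma pair_fil (n : ℕ) (T : Module.End ℂ (U (n + 1) × U (n + 1))) :
    FilMap (pair (W n)) (pair (W n)) T := by
  rintro j ⟨a, b⟩ ⟨ha, hb⟩
  by_cases hj : ((1 : ℕ) : ℤ) ≤ j
  · exact ⟨(pure_W n).top _ hj _, (pure_W n).top _ hj _⟩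
  · obtain rfl : a = 0 := (pure_W n).bot j (not_le.mp hj) a ha
    obtain rfl : b = 0 := (pure_W n).bot j (not_le.mp hj) b hb
    rw [Prod.mk_zero_zero, map_zero]
    exact Submodule.zero_mem _

lemma adm_θ (n : ℕ) : Adm (W n) (θ n) where
  fil := pair_fil n _
  ch := fun w => by rw [θ_apply, θ_apply, LL_phH (r3_W n), map_sub, map_smul]
  ce := fun w => by rw [θ_apply, θ_apply, LL_phE (r3_W n), map_sub, map_smul]
  cf := fun w => by rw [θ_apply, θ_apply, LL_phF (r3_W n), map_sub, map_smul]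
  cl := fun w => by rw [θ_apply, θ_apply, map_sub, map_smul]

lemma r_θ (n : ℕ) (w : U (n + 1) × U (n + 1)) : rMap n (θ n w) = 0 := by
  rw [θ_eq, map_sub, map_smul, map_smul, rs]
  module

lemma θ_s (n : ℕ) (u : U n) : θ n (sMap n u) = 0 := by
  rw [θ_eq, rs, map_smul]
  module

lemma succ_ne (n : ℕ) : (n + 1 : ℂ) ≠ 0 := by exact_mod_cast Nat.succ_ne_zero n

/-- scalar operator -/
noncomputable abbrev sc (n : ℕ) : Module.End ℂ (U (n + 1)) := (V (n + 1)).op .l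

lemma sc_apply (n : ℕ) (x : U (n + 1)) : sc n x = (n : ℂ) • x := by
  show (((n + 1 : ℕ) : ℂ) - 1) • x = _
  push_cast
  rw [add_sub_cancel_right]

/-- the inclusion of the first syzygy -/
noncomputable def iMap (n : ℕ) : (J (W n) (θ n)).X →ₗ[ℂ] (J (V (n + 1)) 1).X :=
  LinearMap.prodMap (dl (sc n)) LinearMap.id

lemma iMap_apply (n : ℕ) (x : (J (W n) (θ n)).X) : iMap n x = (dl (sc n) x.1, x.2) := rfl

lemma dl_pmap (n : ℕ) (T : Module.End ℂ (U (n + 1))) (p : ℕ →₀ U (n + 1)) :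
    dl (sc n) (pmap T p) = pmap T (dl (sc n) p) := by
  refine lin_ext (u := dl (sc n) ∘ₗ pmap T) (v := pmap T ∘ₗ dl (sc n)) ?_ p
  intro m x
  simp only [LinearMap.comp_apply, pmap_single, dl_single, map_sub, sc_apply, map_smul]

lemma lift_dl_sc (n : ℕ) (u : U (n + 1) →ₗ[ℂ] U (n + 1) × U (n + 1)) (p : ℕ →₀ U (n + 1)) :
    lift (LL (W n)) u (dl (sc n) p) = θ n (lift (LL (W n)) u p) := by
  refine lin_ext (u := lift (LL (W n)) u ∘ₗ dl (sc n)) (v := θ n ∘ₗ lift (LL (W n)) u) ?_ p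
  intro m x
  simp only [LinearMap.comp_apply, dl_single, map_sub, sc_apply, lift_single, θ_apply, map_smul,
    pow_succ', Module.End.mul_apply]

lemma ses_sc (n : ℕ) : SES (poly (tw 0 (V (n + 1))) fun _ => 0) (poly (V (n + 1)) fun _ => 0)
    (V (n + 1)) (dl (sc n)) (lift (sc n) LinearMap.id) :=
  ses_dl (r4_V (n + 1)).dl 0 _ _

lemma h4_iMap (n : ℕ) : H4 (J (W n) (θ n)) (J (V (n + 1)) 1) (iMap n) where
  fil := by
    rintro j x ⟨h1, h2, h3⟩
    have hm := (pure_V (n + 1)).mono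
    exact ⟨(ses_sc n).fu _ _ h1, hm.le (by omega) h2, hm.le (by omega) h3⟩
  ch := fun x => Prod.ext (dl_pmap n _ _) rfl
  ce := fun x => Prod.ext (dl_pmap n _ _) rfl
  cf := fun x => Prod.ext (dl_pmap n _ _) rfl
  cl := fun x => Prod.ext (dl_sh _ _) rfl
  cy₁ := fun x => Prod.ext (map_zero (dl (sc n))) (lift_dl_sc n _ _).symm
  cy₂ := fun x => Prod.ext (map_zero (dl (sc n))) (lift_dl_sc n _ _).symm

lemma h4_pi (n : ℕ) : H4 (J (V (n + 1)) 1) (V (n + 1)) (jlift (V (n + 1)) LinearMap.id) :=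
  h4_jlift (r4_V _) ⟨⟨⟨fun _ _ hx => hx, fun _ => rfl⟩, fun _ => rfl⟩, fun _ => rfl⟩

lemma pi_apply (n : ℕ) (x : (J (V (n + 1)) 1).X) :
    jlift (Y := V (n + 1)) (V (n + 1)) LinearMap.id x = lift (sc n) LinearMap.id x.1 := by
  rw [jlift_apply]
  exact (congrArg _ (add_zero 0)).trans (add_zero _)

lemma r4_N (n : ℕ) : R4 (J (W n) (θ n)) := r4_J (r3_W n) (adm_θ n)

lemma r4_JV (n : ℕ) : R4 (J (V n) 1) := r4_J (r4_V n).toR3 (adm_one _)

lemma r4_JW (n : ℕ) : R4 (J (W n) 1) := r4_J (r3_W n) (adm_one _)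

lemma se_one (n : ℕ) : SE (hmap (h4_iMap n)) (hmap (h4_pi n)) := by
  refine ⟨hmap_inj _ ?_, hmap_exact (r4_N n) _ _ ?_ ?_, hmap_surj (r4_JV _) _ ?_⟩
  · rintro ⟨p, w⟩ hx
    rw [iMap_apply, Prod.mk_eq_zero] at hx
    exact Prod.ext ((ses_sc n).inj _ hx.1) hx.2
  · intro x
    rw [pi_apply]
    exact (ses_sc n).comp _
  · rintro j hj ⟨p, w⟩ ⟨h1, -⟩ hx
    rw [pi_apply] at hx
    obtain ⟨q, hq, rfl⟩ := (ses_sc n).ex _ _ h1 hx
    exact ⟨(q, w), ⟨hq, (pure_W n).top _ (by push_cast; omega) _,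
      (pure_W n).top _ (by push_cast; omega) _⟩, rfl⟩
  · intro j hj z hz
    obtain ⟨q, hq, rfl⟩ := (ses_sc n).sur _ _ hz
    exact ⟨(q, 0), ⟨hq, Submodule.zero_mem _⟩, pi_apply n _⟩

lemma h4_s (n : ℕ) (θ' : Module.End ℂ (U (n + 1) × U (n + 1))) :
    H4 (V n) (J (W n) θ') (LinearMap.inr ℂ _ _ ∘ₗ sMap n) where
  fil := by
    intro j x hx
    by_cases hj : ((0 : ℕ) : ℤ) ≤ j
    · exact ⟨Submodule.zero_mem _, (pure_W n).top _ (by push_cast at hj ⊢; omega) _,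
        (pure_W n).top _ (by push_cast at hj ⊢; omega) _⟩
    · rw [(pure_V n).bot j (not_le.mp hj) x hx, map_zero]
      exact Submodule.zero_mem _
  ch := fun x => Prod.ext (map_zero (pmap (uH (n + 1)))).symm (s_h n x)
  ce := fun x => Prod.ext (map_zero (pmap (uE (n + 1)))).symm (s_e n x)
  cf := fun x => Prod.ext (map_zero (pmap (uF (n + 1)))).symm (s_f n x)
  cl := fun x => Prod.ext (map_zero sh).symm (by
    have := θ_s n x
    rw [θ_apply, sub_eq_zero] at this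
    change sMap n (((n : ℂ) - 1) • x) = LL (W n) (sMap n x) - sMap n x
    rw [this, map_smul]
    module)
  cy₁ := fun x => by
    change (0, sMap n 0) = jY₁ (W n) θ' (0, sMap n x)
    rw [J_y₁]
    simp only [map_zero]
  cy₂ := fun x => by
    change (0, sMap n 0) = jY₂ (W n) θ' (0, sMap n x)
    rw [J_y₂]
    simp only [map_zero]

lemma h4_d (n : ℕ) : H4 (J (W n) 1) (J (W n) (θ n)) (LinearMap.prodMap LinearMap.id (θ n)) where
  fil := by
    rintro j x ⟨h1, h2⟩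
    exact ⟨h1, pair_fil n (θ n) _ _ h2⟩
  ch := fun x => Prod.ext rfl ((adm_θ n).ch _)
  ce := fun x => Prod.ext rfl ((adm_θ n).ce _)
  cf := fun x => Prod.ext rfl ((adm_θ n).cf _)
  cl := fun x => Prod.ext rfl (by
    change θ n (LL (W n) x.2 - x.2) = LL (W n) (θ n x.2) - θ n x.2
    rw [map_sub, (adm_θ n).cl])
  cy₁ := fun x => rfl
  cy₂ := fun x => rfl

lemma h4_r (n : ℕ) : H4 (J (W n) (θ n)) (V n) (rMap n ∘ₗ LinearMap.snd ℂ _ _) where
  fil := by
    rintro j ⟨p, a, b⟩ ⟨-, ha, hb⟩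
    by_cases hj : ((0 : ℕ) : ℤ) ≤ j
    · exact (pure_V n).top _ hj _
    · obtain rfl : a = 0 := (pure_W n).bot _ (by push_cast at hj ⊢; omega) a ha
      obtain rfl : b = 0 := (pure_W n).bot _ (by push_cast at hj ⊢; omega) b hb
      change rMap n 0 ∈ _
      rw [map_zero]
      exact Submodule.zero_mem _
  ch := fun x => r_h n x.2
  ce := fun x => r_e n x.2
  cf := fun x => r_f n x.2
  cl := fun x => by
    have := r_θ n x.2
    rw [θ_apply, map_sub, sub_eq_zero] at this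
    change rMap n (LL (W n) x.2 - x.2) = ((n : ℂ) - 1) • rMap n x.2
    rw [map_sub, this, map_smul]
    module
  cy₁ := fun x => r_θ n _
  cy₂ := fun x => r_θ n _

lemma s_inj (n : ℕ) (u : U n) (hu : sMap n u = 0) : u = 0 := by
  have := rs n u
  rw [hu, map_zero] at this
  exact (smul_eq_zero.mp this.symm).resolve_left (succ_ne n)

lemma se_two (n : ℕ) : E4 (hmap (h4_s n 1)) (hmap (h4_d n)) (hmap (h4_r n)) := by
  have top : ∀ j : ℤ, 0 ≤ j → ∀ w, w ∈ (pair (W n)).Fil (j + 1) := fun j hj w =>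
    ⟨(pure_W n).top _ (by push_cast; omega) _, (pure_W n).top _ (by push_cast; omega) _⟩
  refine ⟨hmap_inj _ ?_, hmap_exact (r4_V n) _ _ ?_ ?_,
    hmap_exact (r4_JW n) _ _ ?_ ?_, hmap_surj (r4_N n) _ ?_⟩
  · intro u hu
    exact s_inj n u (congrArg Prod.snd hu)
  · intro u
    exact Prod.ext rfl (θ_s n u)
  · rintro j hj ⟨p, w⟩ - hx
    obtain rfl : p = 0 := congrArg Prod.fst hx
    have hw : θ n w = 0 := congrArg Prod.snd hx
    refine ⟨(n + 1 : ℂ)⁻¹ • rMap n w, (pure_V n).top _ hj _, Prod.ext rfl ?_⟩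
    change sMap n _ = w
    rw [θ_eq, sub_eq_zero] at hw
    have h2 : sMap n (rMap n w) = (n + 1 : ℂ) • w := by
      have : (2 : ℂ) • (sMap n (rMap n w) - (n + 1 : ℂ) • w) = 0 := by
        rw [smul_sub, hw]; module
      exact sub_eq_zero.mp ((smul_eq_zero.mp this).resolve_left two_ne_zero)
    rw [map_smul, h2, smul_smul, inv_mul_cancel₀ (succ_ne n), one_smul]
  · intro x
    exact r_θ n _
  · rintro j hj ⟨p, w⟩ ⟨h1, -⟩ hx
    have hw : rMap n w = 0 := hx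
    refine ⟨(p, (-(2 * (n + 1) : ℂ))⁻¹ • w), ⟨h1, top j hj _⟩, Prod.ext rfl ?_⟩
    change θ n ((-(2 * (n + 1) : ℂ))⁻¹ • w) = w
    rw [map_smul, θ_eq, hw, map_zero, smul_zero, zero_sub, ← neg_smul (2 * (n + 1) : ℂ) w, smul_smul,
      inv_mul_cancel₀ (neg_ne_zero.mpr (mul_ne_zero two_ne_zero (succ_ne n))), one_smul]
  · intro j hj z _
    refine ⟨(0, (n + 1 : ℂ)⁻¹ • sMap n z), ⟨Submodule.zero_mem _, top j hj _⟩, ?_⟩
    change rMap n ((n + 1 : ℂ)⁻¹ • sMap n z) = z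
    rw [map_smul, rs, smul_smul, inv_mul_cancel₀ (succ_ne n), one_smul]

lemma vanAt_retract (n i : ℕ) (h : VanAt S (ModuleCat.of A (Hm (J (W n) (θ n)))) i) :
    VanAt S (ModuleCat.of A (Hm (V n))) i := by
  have hr : H4 (J (W n) (θ n)) (V n) ((n + 1 : ℂ)⁻¹ • (rMap n ∘ₗ LinearMap.snd ℂ _ _)) :=
    (HomS _ _).smul_mem _ (h4_r n)
  refine vanAt_of_retract (hmap (h4_s n (θ n))) (hmap hr) (fun φ => Hm.ext fun g => ?_) i h
  change (n + 1 : ℂ)⁻¹ • rMap n (sMap n (φ.1 g)) = φ.1 g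
  rw [rs, smul_smul, inv_mul_cancel₀ (succ_ne n), one_smul]

lemma good_JV (n : ℕ) : Good (J (V (n + 1)) 1) 3 :=
  good_3 (V := V (n + 1)) (pure_V _) (r4_V _).toR3 (by norm_num)

lemma good_JW (n : ℕ) : Good (J (W n) 1) 4 :=
  good_3 (V := W n) (pure_W _) (r3_W _) (by norm_num)

instance : Subsingleton (Hm (V 0)) := ⟨fun _ _ => Hm.ext fun _ => Subsingleton.elim _ _⟩

lemma finPD_V (n : ℕ) : FinPD (ModuleCat.of A (Hm (V n))) := by
  induction n with
  | zero => exact finPD_of_subsingleton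
  | succ n ih =>
    exact (se_one n).fin₃ ((se_two n).fin₃ ih (good_JW n).fin ih) (good_JV n).fin

lemma not_van_V (n : ℕ) : ∃ i, n ≤ i ∧ ¬ VanAt S (ModuleCat.of A (Hm (V (n + 1)))) i := by
  induction n with
  | zero =>
    by_contra hc
    push Not at hc
    have hv : Van S (ModuleCat.of A (Hm (V 1))) := fun i => hc i (Nat.zero_le _)
    have h3 := (se_one 0).van₁ ((good_JV 0).van le_rfl) hv
    exact (good_JW 0).nvan rfl ((se_two 0).van₂ van_of_subsingleton h3 van_of_subsingleton)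
  | succ n ih =>
    obtain ⟨i, hi, hv⟩ := ih
    refine ⟨i + 1, by omega, fun h => hv (vanAt_retract (n + 1) i ?_)⟩
    exact (se_one (n + 1)).vanAt₁ i ((good_JV (n + 1)).van le_rfl i) h

lemma finite_V (n : ℕ) : Module.Finite A (Hm (V n)) := by
  have := finDim_Hm (X := V n) fun i => inferInstance
  exact Module.Finite.of_restrictScalars_finite ℂ A _

theorem main : ∃ (A : Type) (_ : Ring A) (_ : Algebra ℂ A), FiniteDimensional ℂ A ∧
      ∀ k : ℕ, ∃ N : ModuleCat.{0} A, Module.Finite A N ∧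
        ¬ CategoryTheory.HasProjectiveDimensionLT N k ∧
        ∃ n : ℕ, CategoryTheory.HasProjectiveDimensionLT N n := by
  refine ⟨A, inferInstance, inferInstance, finDim_A, fun k => ?_⟩
  obtain ⟨i, hi, hv⟩ := not_van_V k
  exact ⟨ModuleCat.of A (Hm (V (k + 1))), finite_V _, not_pd_of_not_vanAt hi hv, finPD_V _⟩

end Crest.Agent.R178
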