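import Crest.Agent.R178.Good

/-! The simple `gl₂`-modules of binary forms and the translation step. -/

set_option autoImplicit false

namespace Crest.Agent.R178

open Finsupp

/-- coefficient vectors of binary forms of degree `n - 1` -/
def U (n : ℕ) : Submodule ℂ (ℕ → ℂ) where
  carrier := {v | ∀ k, n ≤ k → v k = 0}
  add_mem' := fun ha hb k hk => by simp [ha k hk, hb k hk]
  zero_mem' := fun _ _ => rfl
  smul_mem' := fun c _ ha k hk => by simp [ha k hk]

instance (n : ℕ) : FiniteDimensional ℂ (U n) := by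
  let φ : U n →ₗ[ℂ] (Fin n → ℂ) :=
    { toFun := fun v i => v.1 i
      map_add' := fun _ _ => rfl
      map_smul' := fun _ _ => rfl }
  refine FiniteDimensional.of_injective φ ?_
  rw [injective_iff_map_eq_zero]
  intro v hv
  ext k
  by_cases hk : k < n
  · exact congrFun hv ⟨k, hk⟩
  · exact v.2 k (by omega)

instance (n : ℕ) : Nontrivial (U (n + 1)) :=
  ⟨⟨⟨Pi.single 0 1, fun k hk => Pi.single_eq_of_ne (by omega) _⟩, 0, fun h => by
    simpa using congrFun (congrArg Subtype.val h) 0⟩⟩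

instance : Subsingleton (U 0) :=
  ⟨fun a b => Subtype.ext (funext fun k => by rw [a.2 k (Nat.zero_le _), b.2 k (Nat.zero_le _)])⟩

/-- weighted shift up -/
def upA (c : ℕ → ℂ) : Module.End ℂ (ℕ → ℂ) where
  toFun := fun v k => match k with
    | 0 => 0
    | k + 1 => c k * v k
  map_add' := fun a b => funext fun k => by cases k <;> simp [mul_add]
  map_smul' := fun a b => funext fun k => by cases k <;> simp [mul_left_comm]

/-- weighted shift down -/
def dnA : Module.End ℂ (ℕ → ℂ) where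
  toFun := fun v k => (k + 1 : ℂ) * v (k + 1)
  map_add' := fun a b => funext fun k => by simp [mul_add]
  map_smul' := fun a b => funext fun k => by simp [mul_left_comm]

/-- diagonal operator -/
def dgA (c : ℕ → ℂ) : Module.End ℂ (ℕ → ℂ) where
  toFun := fun v k => c k * v k
  map_add' := fun a b => funext fun k => by simp [mul_add]
  map_smul' := fun a b => funext fun k => by simp [mul_left_comm]

/-- `h` -/
noncomputable def uH (n : ℕ) : Module.End ℂ (U n) :=
  (dgA fun k => 2 * k - n + 1).restrict fun v hv k hk => by simp [dgA, hv k hk]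

/-- `e` -/
noncomputable def uE (n : ℕ) : Module.End ℂ (U n) :=
  (upA fun k => n - 1 - k).restrict fun v hv k hk => by
    rcases k with _ | k
    · rfl
    · rcases hk.eq_or_lt with rfl | hk
      · simp [upA]
      · simp [upA, hv k (by omega)]

/-- `f` -/
noncomputable def uF (n : ℕ) : Module.End ℂ (U n) :=
  dnA.restrict fun v hv k hk => by simp [dnA, hv (k + 1) (by omega)]

/-- multiplication by `x` -/
noncomputable def mX (n : ℕ) : U n →ₗ[ℂ] U (n + 1) :=
  (upA fun _ => 1).restrict fun v hv k hk => by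
    rcases k with _ | k
    · rfl
    · simp [upA, hv k (by omega)]

/-- multiplication by `y` -/
noncomputable def mY (n : ℕ) : U n →ₗ[ℂ] U (n + 1) :=
  LinearMap.id.restrict fun v hv k hk => hv k (by omega)

/-- derivative in `x` -/
noncomputable def dX (n : ℕ) : U (n + 1) →ₗ[ℂ] U n :=
  dnA.restrict fun v hv k hk => by simp [dnA, hv (k + 1) (by omega)]

/-- derivative in `y` -/
noncomputable def dY (n : ℕ) : U (n + 1) →ₗ[ℂ] U n :=
  (dgA fun k => n - k).restrict fun v hv k hk => by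
    rcases hk.eq_or_lt with rfl | hk
    · simp [dgA]
    · simp [dgA, hv k (by omega)]

section
variable (n k : ℕ)
lemma uH_val (v : U n) : (uH n v).1 k = (2 * k - n + 1) * v.1 k := rfl
lemma uE_zero (v : U n) : (uE n v).1 0 = 0 := rfl
lemma uE_succ (v : U n) : (uE n v).1 (k + 1) = (n - 1 - k) * v.1 k := rfl
lemma uF_val (v : U n) : (uF n v).1 k = (k + 1) * v.1 (k + 1) := rfl
lemma mX_zero (v : U n) : (mX n v).1 0 = 0 := rfl
lemma mX_succ (v : U n) : (mX n v).1 (k + 1) = 1 * v.1 k := rfl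
lemma mY_val (v : U n) : (mY n v).1 k = v.1 k := rfl
lemma dX_val (v : U (n + 1)) : (dX n v).1 k = (k + 1) * v.1 (k + 1) := rfl
lemma dY_val (v : U (n + 1)) : (dY n v).1 k = (n - k) * v.1 k := rfl
end

/-- coefficientwise verification of operator identities -/
macro "coef_tac" : tactic => `(tactic|
  (ext k
   rcases k with _ | _ | k <;>
   simp only [Submodule.coe_add, Submodule.coe_sub, Submodule.coe_smul, Pi.add_apply,
     Pi.sub_apply, Pi.smul_apply, smul_eq_mul, uH_val, uE_zero, uE_succ, uF_val, mX_zero,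
     mX_succ, mY_val, dX_val, dY_val] <;>
   push_cast <;> ring))

/-- binary forms of degree `n - 1` as a filtered `T`-module with `M` acting by zero -/
noncomputable abbrev V (n : ℕ) : Rp where
  X := U n
  Fil := fun j => if 0 ≤ j then ⊤ else ⊥
  op := fun s => match s with
    | .h => uH n
    | .e => uE n
    | .f => uF n
    | .l => (n - 1 : ℂ) • LinearMap.id
    | _ => 0

lemma pure_V (n : ℕ) : Pure (V n) 0 :=
  ⟨fun j hj x => by
      have : (0 : ℤ) ≤ j := hj
      simp [this],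
    fun j hj x hx => by
      have : ¬ (0 : ℤ) ≤ j := not_le.mpr hj
      simpa [this] using hx⟩

lemma r4_V (n : ℕ) : R4 (V n) := by
  have hd : ∀ d, Deg (V n) 0 d := fun _ _ _ _ => Submodule.zero_mem _
  have hp := pure_V n
  refine ⟨⟨⟨⟨hp.mono, hp.deg _⟩, hp.deg _, ?_⟩, hp.deg _, ?_, ?_⟩, hp.deg _, hd _, hd _, ?_, ?_,
    ?_, ?_, ?_, ?_, ?_, ?_, ?_, ?_, ?_, ?_, ?_, ?_, ?_, ?_, ?_⟩ <;> intro x
  · dsimp only; coef_tac
  · dsimp only; coef_tac
  · dsimp only; coef_tac
  all_goals simp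

/-- shift of the filtration -/
noncomputable abbrev sf (X : Rp) : Rp where
  X := X.X
  Fil := fun j => X.Fil (j - 1)
  op := X.op

lemma r3_sf {X : Rp} (h : R3 X) : R3 (sf X) :=
  ⟨⟨⟨mono_tw h.mono 0, deg_tw h.dh 0⟩, deg_tw h.de 0, h.he⟩, deg_tw h.df 0, h.hf, h.ef⟩

lemma pure_sf {X : Rp} {p : ℕ} (h : Pure X p) : Pure (sf X) (p + 1) :=
  ⟨(h.tw 0).top, (h.tw 0).bot⟩

/-- `u ↦ (x u, y u)` -/
noncomputable def sMap (n : ℕ) : U n →ₗ[ℂ] U (n + 1) × U (n + 1) := LinearMap.prod (mX n) (mY n)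

/-- `(a, b) ↦ ∂a/∂x + ∂b/∂y` -/
noncomputable def rMap (n : ℕ) : U (n + 1) × U (n + 1) →ₗ[ℂ] U n :=
  LinearMap.coprod (dX n) (dY n)

lemma sMap_apply (n : ℕ) (u : U n) : sMap n u = (mX n u, mY n u) := rfl

lemma rMap_apply (n : ℕ) (w : U (n + 1) × U (n + 1)) : rMap n w = dX n w.1 + dY n w.2 := rfl

/-- the shifted module -/
noncomputable abbrev W (n : ℕ) : Rp := sf (V (n + 1))

lemma rs (n : ℕ) (u : U n) : rMap n (sMap n u) = (n + 1 : ℂ) • u := by
  rw [rMap_apply, sMap_apply]
  dsimp only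
  coef_tac

lemma LL_eq (n : ℕ) (w : U (n + 1) × U (n + 1)) :
    LL (W n) w = (2 : ℂ) • sMap n (rMap n w) - (n + 2 : ℂ) • w := by
  rw [LL_apply, sMap_apply, rMap_apply]
  apply Prod.ext
  · simp only [Prod.fst_sub, Prod.smul_fst, map_add]
    coef_tac
  · simp only [Prod.snd_sub, Prod.smul_snd, map_add]
    coef_tac

lemma s_h (n : ℕ) (u : U n) : sMap n (uH n u) = phH (W n) (sMap n u) := by
  rw [phH_apply, sMap_apply, sMap_apply]
  apply Prod.ext <;> dsimp only <;> coef_tac

lemma s_e (n : ℕ) (u : U n) : sMap n (uE n u) = phE (W n) (sMap n u) := by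
  rw [phE_apply, sMap_apply, sMap_apply]
  apply Prod.ext <;> dsimp only <;> coef_tac

lemma s_f (n : ℕ) (u : U n) : sMap n (uF n u) = phF (W n) (sMap n u) := by
  rw [phF_apply, sMap_apply, sMap_apply]
  apply Prod.ext <;> dsimp only <;> coef_tac

lemma r_h (n : ℕ) (w : U (n + 1) × U (n + 1)) : rMap n (phH (W n) w) = uH n (rMap n w) := by
  rw [phH_apply, rMap_apply, rMap_apply]
  dsimp only
  coef_tac

lemma r_e (n : ℕ) (w : U (n + 1) × U (n + 1)) : rMap n (phE (W n) w) = uE n (rMap n w) := by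
  rw [phE_apply, rMap_apply, rMap_apply]
  dsimp only
  coef_tac

lemma r_f (n : ℕ) (w : U (n + 1) × U (n + 1)) : rMap n (phF (W n) w) = uF n (rMap n w) := by
  rw [phF_apply, rMap_apply, rMap_apply]
  dsimp only
  coef_tac

end Crest.Agent.R178
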