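import Crest.Agent.R178.Ind

/-! The top level: filtered modules over `T = U(gl₂) ⋉ M`, the induced objects `J θ Y`
and the objects `Z c V` on which `M` acts by zero. -/

set_option autoImplicit false

namespace Crest.Agent.R178

open Finsupp

/-- filtered `T`-modules -/
structure R4 (X : Rp) : Prop extends R3 X where
  dl : Deg X (X.op .l) 1
  dy₁ : Deg X (X.op .y₁) (-1)
  dy₂ : Deg X (X.op .y₂) (-1)
  lh : ∀ x, X.op .l (X.op .h x) = X.op .h (X.op .l x)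
  le : ∀ x, X.op .l (X.op .e x) = X.op .e (X.op .l x)
  lf : ∀ x, X.op .l (X.op .f x) = X.op .f (X.op .l x)
  hy₁ : ∀ x, X.op .h (X.op .y₁ x) = X.op .y₁ (X.op .h x) - X.op .y₁ x
  hy₂ : ∀ x, X.op .h (X.op .y₂ x) = X.op .y₂ (X.op .h x) + X.op .y₂ x
  ey₁ : ∀ x, X.op .e (X.op .y₁ x) = X.op .y₁ (X.op .e x) - X.op .y₂ x
  ey₂ : ∀ x, X.op .e (X.op .y₂ x) = X.op .y₂ (X.op .e x)
  fy₁ : ∀ x, X.op .f (X.op .y₁ x) = X.op .y₁ (X.op .f x)
  fy₂ : ∀ x, X.op .f (X.op .y₂ x) = X.op .y₂ (X.op .f x) - X.op .y₁ x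
  ly₁ : ∀ x, X.op .l (X.op .y₁ x) = X.op .y₁ (X.op .l x) - X.op .y₁ x
  ly₂ : ∀ x, X.op .l (X.op .y₂ x) = X.op .y₂ (X.op .l x) - X.op .y₂ x
  y₁l : ∀ x, X.op .y₁ (X.op .l x) =
    X.op .y₁ (X.op .h x) - (2 : ℂ) • X.op .y₁ x + (2 : ℂ) • X.op .y₂ (X.op .f x)
  y₂l : ∀ x, X.op .y₂ (X.op .l x) =
    (2 : ℂ) • X.op .y₁ (X.op .e x) - X.op .y₂ (X.op .h x) - (2 : ℂ) • X.op .y₂ x
  y₁₁ : ∀ x, X.op .y₁ (X.op .y₁ x) = 0
  y₁₂ : ∀ x, X.op .y₁ (X.op .y₂ x) = 0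
  y₂₁ : ∀ x, X.op .y₂ (X.op .y₁ x) = 0
  y₂₂ : ∀ x, X.op .y₂ (X.op .y₂ x) = 0

/-- maps of filtered `T`-modules -/
structure H4 (X Y : Rp) (u : X.X →ₗ[ℂ] Y.X) : Prop extends H3 X Y u where
  cl : Comm X Y u .l
  cy₁ : Comm X Y u .y₁
  cy₂ : Comm X Y u .y₂

open LinearMap in
/-- `h` on `Y ⊗ ℂ²` -/
noncomputable def phH (Y : Rp) : Module.End ℂ (Y.X × Y.X) :=
  prodMap (Y.op .h - 1) (Y.op .h + 1)

open LinearMap in
/-- `e` on `Y ⊗ ℂ²` -/
noncomputable def phE (Y : Rp) : Module.End ℂ (Y.X × Y.X) :=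
  LinearMap.prod (Y.op .e ∘ₗ fst ℂ _ _) (Y.op .e ∘ₗ snd ℂ _ _ - fst ℂ _ _)

open LinearMap in
/-- `f` on `Y ⊗ ℂ²` -/
noncomputable def phF (Y : Rp) : Module.End ℂ (Y.X × Y.X) :=
  LinearMap.prod (Y.op .f ∘ₗ fst ℂ _ _ - snd ℂ _ _) (Y.op .f ∘ₗ snd ℂ _ _)

open LinearMap in
/-- the shifted split Casimir operator on `Y ⊗ ℂ²` -/
noncomputable def LL (Y : Rp) : Module.End ℂ (Y.X × Y.X) :=
  LinearMap.prod
    (Y.op .h ∘ₗ fst ℂ _ _ - (2 : ℂ) • fst ℂ _ _ + (2 : ℂ) • Y.op .e ∘ₗ snd ℂ _ _)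
    ((2 : ℂ) • Y.op .f ∘ₗ fst ℂ _ _ - Y.op .h ∘ₗ snd ℂ _ _ - (2 : ℂ) • snd ℂ _ _)

lemma phH_apply (Y : Rp) (w : Y.X × Y.X) :
    phH Y w = (Y.op .h w.1 - w.1, Y.op .h w.2 + w.2) := rfl

lemma phE_apply (Y : Rp) (w : Y.X × Y.X) :
    phE Y w = (Y.op .e w.1, Y.op .e w.2 - w.1) := rfl

lemma phF_apply (Y : Rp) (w : Y.X × Y.X) :
    phF Y w = (Y.op .f w.1 - w.2, Y.op .f w.2) := rfl

lemma LL_apply (Y : Rp) (w : Y.X × Y.X) :
    LL Y w = (Y.op .h w.1 - (2 : ℂ) • w.1 + (2 : ℂ) • Y.op .e w.2,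
      (2 : ℂ) • Y.op .f w.1 - Y.op .h w.2 - (2 : ℂ) • w.2) := rfl

lemma LL_phH {Y : Rp} (h : R3 Y) (w : Y.X × Y.X) : LL Y (phH Y w) = phH Y (LL Y w) := by
  simp only [LL_apply, phH_apply, map_add, map_sub, map_smul, h.he, h.hf]
  ext <;> simp only <;> module

lemma LL_phE {Y : Rp} (h : R3 Y) (w : Y.X × Y.X) : LL Y (phE Y w) = phE Y (LL Y w) := by
  simp only [LL_apply, phE_apply, map_add, map_sub, map_smul, h.he, h.ef]
  ext <;> simp only <;> module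

lemma LL_phF {Y : Rp} (h : R3 Y) (w : Y.X × Y.X) : LL Y (phF Y w) = phF Y (LL Y w) := by
  simp only [LL_apply, phF_apply, map_add, map_sub, map_smul, h.hf, h.ef]
  ext <;> simp only <;> module

lemma pow_comm_apply {M N : Type} [AddCommGroup M] [Module ℂ M] [AddCommGroup N] [Module ℂ N]
    {T : Module.End ℂ M} {T' : Module.End ℂ N} {u : M →ₗ[ℂ] N}
    (h : ∀ x, u (T x) = T' (u x)) (m : ℕ) (x : M) : u ((T ^ m) x) = (T' ^ m) (u x) := by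
  induction m with
  | zero => simp
  | succ m ih => simp only [pow_succ', Module.End.mul_apply, h, ih]

/-- the pair filtration -/
noncomputable abbrev pair (Y : Rp) : Rp where
  X := Y.X × Y.X
  Fil := fun j => (Y.Fil j).prod (Y.Fil j)
  op := fun _ => 0

lemma deg_LL {Y : Rp} (h : R3 Y) : Deg (pair Y) (LL Y) 1 := by
  rintro j w ⟨h1, h2⟩
  rw [LL_apply]
  exact ⟨Submodule.add_mem _ (deg_sub_smul h.mono h.dh _ h1)
      (Submodule.smul_mem _ _ (h.de _ _ h2)),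
    Submodule.sub_mem _ (Submodule.sub_mem _ (Submodule.smul_mem _ _ (h.df _ _ h1))
      (h.dh _ _ h2)) (Submodule.smul_mem _ _ (h.mono _ _ h2))⟩

section
open LinearMap
variable (Y : Rp) (θ : Module.End ℂ (Y.X × Y.X))

/-- `h` on `J` -/
noncomputable def jH : Module.End ℂ ((ℕ →₀ Y.X) × (Y.X × Y.X)) :=
  prodMap (pmap (Y.op .h)) (phH Y)
/-- `e` on `J` -/
noncomputable def jE : Module.End ℂ ((ℕ →₀ Y.X) × (Y.X × Y.X)) :=
  prodMap (pmap (Y.op .e)) (phE Y)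
/-- `f` on `J` -/
noncomputable def jF : Module.End ℂ ((ℕ →₀ Y.X) × (Y.X × Y.X)) :=
  prodMap (pmap (Y.op .f)) (phF Y)
/-- `l` on `J` -/
noncomputable def jL : Module.End ℂ ((ℕ →₀ Y.X) × (Y.X × Y.X)) :=
  prodMap sh (LL Y - 1)
/-- `y₁` on `J` -/
noncomputable def jY₁ : Module.End ℂ ((ℕ →₀ Y.X) × (Y.X × Y.X)) :=
  inr ℂ _ _ ∘ₗ θ ∘ₗ lift (LL Y) (inl ℂ _ _) ∘ₗ fst ℂ _ _
/-- `y₂` on `J` -/
noncomputable def jY₂ : Module.End ℂ ((ℕ →₀ Y.X) × (Y.X × Y.X)) :=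
  inr ℂ _ _ ∘ₗ θ ∘ₗ lift (LL Y) (inr ℂ _ _) ∘ₗ fst ℂ _ _

/-- the induced object `Y[l] ⊕ Y ⊗ ℂ²`, the action of `M` being twisted by `θ` -/
noncomputable abbrev J : Rp where
  X := (ℕ →₀ Y.X) × (Y.X × Y.X)
  Fil := fun j => (pFil Y.Fil j).prod ((pair Y).Fil (j + 1))
  op := fun s => match s with
    | .h => jH Y
    | .e => jE Y
    | .f => jF Y
    | .l => jL Y
    | .y₁ => jY₁ Y θ
    | .y₂ => jY₂ Y θ

variable (x : (ℕ →₀ Y.X) × (Y.X × Y.X))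

lemma J_h : jH Y x = (pmap (Y.op .h) x.1, phH Y x.2) := rfl
lemma J_e : jE Y x = (pmap (Y.op .e) x.1, phE Y x.2) := rfl
lemma J_f : jF Y x = (pmap (Y.op .f) x.1, phF Y x.2) := rfl
lemma J_l : jL Y x = (sh x.1, LL Y x.2 - x.2) := rfl
lemma J_y₁ : jY₁ Y θ x = (0, θ (lift (LL Y) (LinearMap.inl ℂ _ _) x.1)) := rfl
lemma J_y₂ : jY₂ Y θ x = (0, θ (lift (LL Y) (LinearMap.inr ℂ _ _) x.1)) := rfl
end

/-- admissible twists -/
structure Adm (Y : Rp) (θ : Module.End ℂ (Y.X × Y.X)) : Prop where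
  fil : FilMap (pair Y) (pair Y) θ
  ch : ∀ w, θ (phH Y w) = phH Y (θ w)
  ce : ∀ w, θ (phE Y w) = phE Y (θ w)
  cf : ∀ w, θ (phF Y w) = phF Y (θ w)
  cl : ∀ w, θ (LL Y w) = LL Y (θ w)

lemma adm_one (Y : Rp) : Adm Y 1 :=
  ⟨fun _ _ h => h, fun _ => rfl, fun _ => rfl, fun _ => rfl, fun _ => rfl⟩

lemma deg_pmap {Y : Rp} {T : Module.End ℂ Y.X} (hT : Deg Y T 1) {j : ℤ} {p : ℕ →₀ Y.X}
    (hp : p ∈ pFil Y.Fil j) : pmap T p ∈ pFil Y.Fil (j + 1) := by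
  intro m
  rw [pmap_apply]
  convert hT _ _ (hp m) using 2
  ring

lemma lift_rel {M N : Type} [AddCommGroup M] [Module ℂ M] [AddCommGroup N] [Module ℂ N]
    {L φ : Module.End ℂ N} (hc : ∀ w, L (φ w) = φ (L w)) (u : M →ₗ[ℂ] N) (m : ℕ) (x : M) :
    φ (lift L u (single m x)) = (L ^ m) (φ (u x)) := by
  rw [lift_single, pow_comm_apply (fun w => (hc w).symm)]

lemma r4_J {Y : Rp} (h : R3 Y) {θ : Module.End ℂ (Y.X × Y.X)} (hθ : Adm Y θ) : R4 (J Y θ) where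
  mono := by
    rintro j x ⟨h1, h2, h3⟩
    exact ⟨mono_poly h.mono (fun _ => 0) _ _ h1, h.mono _ _ h2, h.mono _ _ h3⟩
  dh := by
    rintro j x ⟨h1, h2, h3⟩
    exact ⟨deg_pmap h.dh h1, Submodule.sub_mem _ (h.dh _ _ h2) (h.mono _ _ h2),
      Submodule.add_mem _ (h.dh _ _ h3) (h.mono _ _ h3)⟩
  de := by
    rintro j x ⟨h1, h2, h3⟩
    exact ⟨deg_pmap h.de h1, h.de _ _ h2, Submodule.sub_mem _ (h.de _ _ h3) (h.mono _ _ h2)⟩
  df := by
    rintro j x ⟨h1, h2, h3⟩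
    exact ⟨deg_pmap h.df h1, Submodule.sub_mem _ (h.df _ _ h2) (h.mono _ _ h3), h.df _ _ h3⟩
  dl := by
    rintro j x ⟨h1, h2⟩
    exact ⟨deg_sh Y (fun _ => 0) _ _ h1,
      Submodule.sub_mem _ (deg_LL h _ _ h2) ⟨h.mono _ _ h2.1, h.mono _ _ h2.2⟩⟩
  dy₁ := by
    rintro j x ⟨h1, -⟩
    refine ⟨Submodule.zero_mem _, hθ.fil _ _ ?_⟩
    have := filMap_lift (X := Y) (Y := pair Y) (u := LinearMap.inl ℂ _ _)
      (fun _ _ hx => ⟨hx, Submodule.zero_mem _⟩) (deg_LL h) (fun _ => 0) _ _ h1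
    have e : j + -1 + 1 = j := by ring
    rw [e]
    exact this
  dy₂ := by
    rintro j x ⟨h1, -⟩
    refine ⟨Submodule.zero_mem _, hθ.fil _ _ ?_⟩
    have := filMap_lift (X := Y) (Y := pair Y) (u := LinearMap.inr ℂ _ _)
      (fun _ _ hx => ⟨Submodule.zero_mem _, hx⟩) (deg_LL h) (fun _ => 0) _ _ h1
    have e : j + -1 + 1 = j := by ring
    rw [e]
    exact this
  he := by
    intro x
    simp only [J_h, J_e, phH_apply, phE_apply, map_sub, h.he]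
    ext m
    · simp [pmap_apply, h.he]
    · simp only [Prod.snd_add, Prod.fst_add, Prod.smul_snd, Prod.smul_fst]; module
    · simp only [Prod.snd_add, Prod.smul_snd, map_add]; module
  hf := by
    intro x
    simp only [J_h, J_f, phH_apply, phF_apply, map_sub, h.hf]
    ext m
    · simp [pmap_apply, h.hf]
    · simp only [Prod.snd_sub, Prod.fst_sub, Prod.smul_snd, Prod.smul_fst]; module
    · simp only [Prod.snd_sub, Prod.smul_snd, map_add]; module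
  ef := by
    intro x
    simp only [J_h, J_e, J_f, phH_apply, phE_apply, phF_apply, map_sub, h.ef]
    ext m
    · simp [pmap_apply, h.ef]
    · simp only [Prod.snd_add, Prod.fst_add]; module
    · simp only [Prod.snd_add]; module
  lh := by intro x; simp only [J_h, J_l, pmap_sh, map_sub, LL_phH h]
  le := by intro x; simp only [J_e, J_l, pmap_sh, map_sub, LL_phE h]
  lf := by intro x; simp only [J_f, J_l, pmap_sh, map_sub, LL_phF h]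
  hy₁ := by
    rintro ⟨p, w⟩
    simp only [J_h, J_y₁, map_zero, ← hθ.ch, Prod.mk_sub_mk, sub_zero, ← map_sub]
    congr 2
    refine lin_ext (u := phH Y ∘ₗ lift (LL Y) _) (v := lift (LL Y) _ ∘ₗ (pmap (Y.op .h) - 1)) ?_ p
    intro m x
    simp only [LinearMap.comp_apply, lift_rel (LL_phH h)]
    simp [phH_apply, ← single_sub]
  hy₂ := by
    rintro ⟨p, w⟩
    simp only [J_h, J_y₂, map_zero, ← hθ.ch, Prod.mk_add_mk, add_zero, ← map_add]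
    congr 2
    refine lin_ext (u := phH Y ∘ₗ lift (LL Y) _) (v := lift (LL Y) _ ∘ₗ (pmap (Y.op .h) + 1)) ?_ p
    intro m x
    simp only [LinearMap.comp_apply, lift_rel (LL_phH h)]
    simp [phH_apply, ← single_add]
  ey₁ := by
    rintro ⟨p, w⟩
    simp only [J_e, J_y₁, J_y₂, map_zero, ← hθ.ce, Prod.mk_sub_mk, sub_zero, ← map_sub]
    congr 2
    refine lin_ext (u := phE Y ∘ₗ lift (LL Y) _)
      (v := lift (LL Y) _ ∘ₗ pmap (Y.op .e) - lift (LL Y) _) ?_ p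
    intro m x
    simp only [LinearMap.comp_apply, lift_rel (LL_phE h)]
    simp [phE_apply, ← map_sub]
  ey₂ := by
    rintro ⟨p, w⟩
    simp only [J_e, J_y₂, map_zero, ← hθ.ce]
    congr 2
    refine lin_ext (u := phE Y ∘ₗ lift (LL Y) _) (v := lift (LL Y) _ ∘ₗ pmap (Y.op .e)) ?_ p
    intro m x
    simp only [LinearMap.comp_apply, lift_rel (LL_phE h)]
    simp [phE_apply]
  fy₁ := by
    rintro ⟨p, w⟩
    simp only [J_f, J_y₁, map_zero, ← hθ.cf]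
    congr 2
    refine lin_ext (u := phF Y ∘ₗ lift (LL Y) _) (v := lift (LL Y) _ ∘ₗ pmap (Y.op .f)) ?_ p
    intro m x
    simp only [LinearMap.comp_apply, lift_rel (LL_phF h)]
    simp [phF_apply]
  fy₂ := by
    rintro ⟨p, w⟩
    simp only [J_f, J_y₁, J_y₂, map_zero, ← hθ.cf, Prod.mk_sub_mk, sub_zero, ← map_sub]
    congr 2
    refine lin_ext (u := phF Y ∘ₗ lift (LL Y) _)
      (v := lift (LL Y) _ ∘ₗ pmap (Y.op .f) - lift (LL Y) _) ?_ p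
    intro m x
    simp only [LinearMap.comp_apply, lift_rel (LL_phF h)]
    simp [phF_apply, ← map_sub]
  ly₁ := by
    rintro ⟨p, w⟩
    simp only [J_l, J_y₁, map_zero, lift_sh, hθ.cl, Prod.mk_sub_mk, sub_zero]
  ly₂ := by
    rintro ⟨p, w⟩
    simp only [J_l, J_y₂, map_zero, lift_sh, hθ.cl, Prod.mk_sub_mk, sub_zero]
  y₁l := by
    rintro ⟨p, w⟩
    simp only [J_l, J_h, J_f, J_y₁, J_y₂, lift_sh, Prod.smul_mk, smul_zero, Prod.mk_sub_mk,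
      Prod.mk_add_mk, sub_zero, add_zero, ← map_smul θ, ← map_sub θ, ← map_add θ]
    congr 2
    refine lin_ext (u := LL Y ∘ₗ lift (LL Y) _)
      (v := lift (LL Y) _ ∘ₗ pmap (Y.op .h) - (2 : ℂ) • lift (LL Y) _ +
        (2 : ℂ) • lift (LL Y) _ ∘ₗ pmap (Y.op .f)) ?_ p
    intro m x
    rw [LinearMap.comp_apply, lift_rel (L := LL Y) (φ := LL Y) (fun _ => rfl)]
    simp only [LinearMap.comp_apply,
      LinearMap.add_apply, LinearMap.sub_apply, LinearMap.smul_apply, pmap_single, lift_single,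
      ← map_smul (LL Y ^ m), ← map_sub (LL Y ^ m), ← map_add (LL Y ^ m)]
    simp [LL_apply]
  y₂l := by
    rintro ⟨p, w⟩
    simp only [J_l, J_h, J_e, J_y₁, J_y₂, lift_sh, Prod.smul_mk, smul_zero, Prod.mk_sub_mk,
      sub_zero, ← map_smul θ, ← map_sub θ]
    congr 2
    refine lin_ext (u := LL Y ∘ₗ lift (LL Y) _)
      (v := (2 : ℂ) • lift (LL Y) _ ∘ₗ pmap (Y.op .e) - lift (LL Y) _ ∘ₗ pmap (Y.op .h) -
        (2 : ℂ) • lift (LL Y) _) ?_ p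
    intro m x
    rw [LinearMap.comp_apply, lift_rel (L := LL Y) (φ := LL Y) (fun _ => rfl)]
    simp only [LinearMap.comp_apply,
      LinearMap.sub_apply, LinearMap.smul_apply, pmap_single, lift_single,
      ← map_smul (LL Y ^ m), ← map_sub (LL Y ^ m)]
    simp [LL_apply]
  y₁₁ := by intro x; simp only [J_y₁, map_zero]; rfl
  y₁₂ := by intro x; simp only [J_y₁, J_y₂, map_zero]; rfl
  y₂₁ := by intro x; simp only [J_y₁, J_y₂, map_zero]; rfl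
  y₂₂ := by intro x; simp only [J_y₂, map_zero]; rfl

end Crest.Agent.R178
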